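import Vale.Agent.P065.Round

/-!
An explicit configuration of 48 points with 120 balanced pairs, and two trivial configurations.
-/

namespace Vale.Agent.P065

open Finset

def basePts : List (ℤ × ℤ) :=
  [(1043686112, 190606792685665232000), (1042980128, 190619438948035222400),
   (634390976, 201354471513521519360), (634385984, 201354602634386474240),
   (-9164494432, 405722962565884108160), (-9164614048, 405725457312867328640),
   (-9290382592, 408362437654347614720), (-9290384128, 408362469859472340480),
   (-71749891312, 167339935785443958400), (-71747734288, 167340137067473494400),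
   (-72534798208, 164325126645955594880), (-72535691392, 164324674624026408320),
   (-87147152512, 135869554302648296960), (-87147150208, 135869558903380400640),
   (-87336878416, 135492758368997495680), (-87334911664, 135492570889164270720),
   (32893837184, -658147672741380729600), (32893821056, -658147546221247878400),
   (34214832416, -668506895080069438720), (34215237344, -668517382448899777280),
   (58562820992, -843106280044589032320), (58563118208, -843108411333736062080),
   (58877540480, -845368683730567029760), (58877544320, -845368711334959651840),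
   (175897556768, 2593002117553937386880), (175899691232, 2593031443770549269120),
   (178100620160, 2623167954547636428800), (178100647040, 2623168322606204723200),
   (217013038016, 3117458761431299575040), (217013539904, 3117465163350021845760),
   (217516602368, 3123869086841306744320), (217516608512, 3123869165053752506880),
   (102484930640, -1563343525678686553600), (102485462960, -1563352290073344064000),
   (103035279152, -1572387798397534657920), (103036119248, -1572398832103302308480),
   (115264642160, -1747647013459265881600), (115264791440, -1747649152799694092800),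
   (115422002240, -1749909421170884469760), (115422004160, -1749909448775277091840),
   (-248452454608, 150851011991778093440), (-248451983152, 150851013141961119360),
   (-250668959056, 150662476290535338880), (-250670955184, 150662656869270408320),
   (-287073672208, 150756788998294727040), (-287074116592, 150756790148477752960),
   (-287545750720, 150756789573386240000), (-287545756480, 150756789573386240000)]

def baseNodes : List (ℕ × ℕ) :=
  [(1, 0), (2, 0), (5, 0), (8, 0), (0, 17), (0, 18), (0, 22), (0, 23), (0, 24), (2, 1),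
   (4, 1), (9, 1), (1, 16), (1, 18), (1, 24), (3, 2), (4, 2), (10, 2), (2, 21), (2, 25),
   (4, 3), (10, 3), (3, 20), (3, 24), (5, 4), (6, 4), (8, 4), (4, 27), (6, 5), (9, 5),
   (5, 26), (7, 6), (8, 6), (6, 25), (9, 7), (7, 24), (8, 9), (10, 8), (13, 8), (8, 16),
   (40, 8), (41, 8), (11, 9), (12, 9), (9, 17), (11, 10), (13, 10), (10, 16), (41, 10), (12, 11),
   (11, 17), (40, 11), (12, 13), (14, 12), (15, 12), (12, 18), (42, 12), (13, 19), (42, 13), (14, 15),
   (14, 17), (40, 14), (41, 14), (15, 16), (17, 16), (16, 18), (16, 19), (16, 21), (16, 33), (17, 20),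
   (17, 32), (18, 19), (18, 20), (18, 34), (19, 20), (19, 34), (20, 21), (20, 22), (20, 32), (21, 22),
   (21, 33), (22, 23), (22, 32), (23, 32), (24, 25), (24, 26), (24, 28), (25, 26), (25, 28), (26, 27),
   (26, 29), (27, 28), (28, 29), (28, 30), (29, 30), (30, 31), (32, 33), (32, 34), (32, 36), (33, 35),
   (33, 37), (34, 35), (34, 36), (35, 36), (36, 37), (36, 38), (37, 38), (38, 39), (40, 41), (42, 40),
   (44, 40), (45, 40), (43, 41), (43, 42), (44, 42), (44, 43), (45, 44), (46, 44), (46, 45), (47, 46)]

def bP (i : Fin 48) : ℤ × ℤ := basePts.getD i.val (0, 0)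

def bLo (ν : Fin 120) : Fin 48 := Fin.ofNat 48 (baseNodes.getD ν.val (0, 0)).1

def bHi (ν : Fin 120) : Fin 48 := Fin.ofNat 48 (baseNodes.getD ν.val (0, 0)).2

def bD (ν : Fin 120) (r : Fin 48) : ℤ :=
  ((bP r).2 - (bP (bHi ν)).2) * ((bP (bHi ν)).1 - (bP (bLo ν)).1) -
    ((bP (bLo ν)).2 - (bP (bHi ν)).2) * ((bP (bHi ν)).1 - (bP r).1)

lemma base_lt : ∀ ν, (bP (bLo ν)).1 < (bP (bHi ν)).1 := by decide +kernel

lemma base_inj : ∀ ν ν', (bLo ν' = bLo ν ∨ bLo ν' = bHi ν) → (bHi ν' = bLo ν ∨ bHi ν' = bHi ν) →
    ν' = ν := by decide +kernel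

lemma base_bal : ∀ ν, ∑ r, (bD ν r).sign = 0 := by decide +kernel

lemma base_marg : ∀ ν r, r = bLo ν ∨ r = bHi ν ∨ (bP (bHi ν)).1 - (bP (bLo ν)).1 ≤ |bD ν r| := by
  decide +kernel

lemma base_sum : ∑ r, (bP r).1 = 0 := by decide +kernel

lemma base_bnd : ∀ r, |(bP r).1| ≤ 10 ^ 22 ∧ |(bP r).2| ≤ 10 ^ 22 := by decide +kernel

lemma sg_intCast (z : ℤ) : sg (z : ℝ) = z.sign := by
  rcases lt_trichotomy z 0 with h | h | h
  · rw [sg_neg (by exact_mod_cast h), Int.sign_eq_neg_one_of_neg h]
  · simp [h, sg_zero]
  · rw [sg_pos (by exact_mod_cast h), Int.sign_eq_one_of_pos h]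

noncomputable def bPt (r : Fin 48) : ℝ × ℝ := ((bP r).1, (bP r).2)

lemma base_ne (ν : Fin 120) : (bPt (bLo ν)).1 ≠ (bPt (bHi ν)).1 := by
  have := base_lt ν
  simp only [bPt]
  exact_mod_cast this.ne

lemma base_off (ν : Fin 120) (r : Fin 48) : off (bPt (bLo ν)) (bPt (bHi ν)) (bPt r) =
    (bD ν r : ℝ) / (((bP (bHi ν)).1 - (bP (bLo ν)).1 : ℤ) : ℝ) := by
  rw [off_eq_div (base_ne ν)]
  simp [bPt, bD]

noncomputable def base : Cfg where
  ι := Fin 48
  N := Fin 120
  Sl := Fin 120
  pt := bPt
  lo := bLo
  hi := bHi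
  slot := id
  ne1 := base_ne
  inj := base_inj
  sinj _ _ _ h := h
  bal ν := by
    rw [← base_bal ν]
    refine Finset.sum_congr rfl (fun r _ => ?_)
    rw [base_off, sg_div, sg_intCast, sg_intCast,
      Int.sign_eq_one_of_pos (sub_pos.mpr (base_lt ν)), mul_one]

lemma base_inner : base.Inner (10 ^ 22) := by
  refine ⟨⟨fun r => (bP r).1, fun r => rfl, base_sum⟩, fun r => ?_,
    fun (ν : Fin 120) (r : Fin 48) h => ?_, ?_⟩
  · have := base_bnd r
    change |((bP r).1 : ℝ)| ≤ _ ∧ |((bP r).2 : ℝ)| ≤ _
    exact_mod_cast this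
  · have h1 : (bP (bHi ν)).1 - (bP (bLo ν)).1 ≤ |bD ν r| := by
      rcases base_marg ν r with h1 | h1 | h1
      · exact absurd (Or.inl h1) h
      · exact absurd (Or.inr h1) h
      · exact h1
    have h2 : (0 : ℝ) < (((bP (bHi ν)).1 - (bP (bLo ν)).1 : ℤ) : ℝ) := by
      exact_mod_cast sub_pos.mpr (base_lt ν)
    change 1 ≤ |off (bPt (bLo ν)) (bPt (bHi ν)) (bPt r)|
    rw [base_off ν r, abs_div, abs_of_pos h2, le_div_iff₀ h2, one_mul]
    exact_mod_cast h1
  · change Even (Fintype.card (Fin 48))
    rw [Fintype.card_fin]; decide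

/-- two points and one node -/
noncomputable def two : Cfg where
  ι := Bool
  N := Unit
  Sl := Unit
  pt b := if b then (1, 0) else (-1, 0)
  lo _ := false
  hi _ := true
  slot := id
  ne1 _ := by norm_num
  inj _ _ _ _ := rfl
  sinj _ _ _ _ := rfl
  bal _ := by
    rw [Fintype.sum_bool, off_right, off_left (by norm_num), sg_zero]; rfl

lemma two_on (ν : two.N) (r : two.ι) : two.On ν r := by
  cases r
  · exact Or.inl rfl
  · exact Or.inr rfl

lemma two_marg (m : ℝ) : two.Marg m := fun ν r h => absurd (two_on ν r) h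

lemma two_comp (κ : ℝ) : two.Comp κ := fun ν _ h => absurd (two_on ν _) h

lemma two_gap : two.Gap 1 := fun _ => by
  change (1 : ℝ) ≤ |(1 : ℝ) - (-1)|
  norm_num

lemma two_bnd : two.Bnd 1 := fun r => by
  cases r
  · change |(-1 : ℝ)| ≤ 1 ∧ |(0 : ℝ)| ≤ 1
    norm_num
  · change |(1 : ℝ)| ≤ 1 ∧ |(0 : ℝ)| ≤ 1
    norm_num

lemma two_inner : two.Inner 1 := by
  refine ⟨⟨fun b : Bool => if b then 1 else -1, fun r => ?_, ?_⟩, two_bnd,
    fun ν r h => absurd (two_on ν r) h, ?_⟩
  · cases r
    · change (-1 : ℝ) = ((-1 : ℤ) : ℝ)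
      norm_num
    · change (1 : ℝ) = ((1 : ℤ) : ℝ)
      norm_num
  · change ∑ b : Bool, (if b then (1 : ℤ) else -1) = 0
    rw [Fintype.sum_bool]; rfl
  · change Even (Fintype.card Bool)
    rw [Fintype.card_bool]; decide

end Vale.Agent.P065
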