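import Mathlib

/-!
Basic objects for the halving line construction: vertical offsets of a point from the line
through two points, and configurations with a distinguished family of balanced pairs.
-/

namespace Vale.Agent.P065

open Finset

/-- integer valued sign -/
noncomputable def sg (x : ℝ) : ℤ := if 0 < x then 1 else if x < 0 then -1 else 0

lemma sg_pos {x : ℝ} (h : 0 < x) : sg x = 1 := by simp [sg, h]

lemma sg_neg {x : ℝ} (h : x < 0) : sg x = -1 := by simp [sg, h, not_lt.mpr h.le]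

lemma sg_zero : sg 0 = 0 := by simp [sg]

lemma sg_of_close {x y : ℝ} (h : |x - y| ≤ |y| / 2) : sg x = sg y := by
  rcases lt_trichotomy y 0 with hy | hy | hy
  · rw [abs_of_neg hy] at h
    have := (abs_le.mp h).2
    rw [sg_neg hy, sg_neg (by linarith)]
  · subst hy
    simp only [sub_zero, abs_zero, zero_div, abs_nonpos_iff] at h
    rw [h]
  · rw [abs_of_pos hy] at h
    have := (abs_le.mp h).1
    rw [sg_pos hy, sg_pos (by linarith)]

lemma sg_mul_pos {c x : ℝ} (hc : 0 < c) : sg (c * x) = sg x := by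
  rcases lt_trichotomy x 0 with hx | hx | hx
  · rw [sg_neg hx, sg_neg (mul_neg_of_pos_of_neg hc hx)]
  · simp [hx]
  · rw [sg_pos hx, sg_pos (mul_pos hc hx)]

lemma sg_mul_neg {c x : ℝ} (hc : c < 0) : sg (c * x) = - sg x := by
  rcases lt_trichotomy x 0 with hx | hx | hx
  · rw [sg_neg hx, sg_pos (mul_pos_of_neg_of_neg hc hx)]; rfl
  · simp [hx, sg_zero]
  · rw [sg_pos hx, sg_neg (mul_neg_of_neg_of_pos hc hx)]

lemma abs_close_lb {x y : ℝ} (h : |x - y| ≤ |y| / 2) : |y| / 2 ≤ |x| := by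
  have := abs_sub_abs_le_abs_sub y x
  rw [abs_sub_comm] at this
  linarith

lemma abs_close_ub {x y : ℝ} (h : |x - y| ≤ |y| / 2) : |x| ≤ 3 / 2 * |y| := by
  have := abs_sub_abs_le_abs_sub x y
  linarith

/-- horizontal coordinate of `r`, normalised so that `q` sits at `0` and `p` at `1` -/
noncomputable def uu (p q r : ℝ × ℝ) : ℝ := (q.1 - r.1) / (q.1 - p.1)

/-- vertical offset of `r` from the line through `p` and `q` -/
noncomputable def off (p q r : ℝ × ℝ) : ℝ := r.2 - q.2 - (p.2 - q.2) * uu p q r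

lemma uu_right (p q : ℝ × ℝ) : uu p q q = 0 := by simp [uu]

lemma uu_left {p q : ℝ × ℝ} (h : p.1 ≠ q.1) : uu p q p = 1 := by
  unfold uu; exact div_self (sub_ne_zero.mpr h.symm)

lemma off_right (p q : ℝ × ℝ) : off p q q = 0 := by simp [off, uu_right]

lemma off_left {p q : ℝ × ℝ} (h : p.1 ≠ q.1) : off p q p = 0 := by simp [off, uu_left h]

/-- the point `A + w (B - A)` moved up by `e` -/
def mix (A B : ℝ × ℝ) (w e : ℝ) : ℝ × ℝ := (A.1 + w * (B.1 - A.1), A.2 + w * (B.2 - A.2) + e)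

lemma uu_mix (p q A B : ℝ × ℝ) (w e : ℝ) :
    uu p q (mix A B w e) = (1 - w) * uu p q A + w * uu p q B := by
  simp only [uu, mix]; ring

lemma off_mix (p q A B : ℝ × ℝ) (w e : ℝ) :
    off p q (mix A B w e) = (1 - w) * off p q A + w * off p q B + e := by
  simp only [off, uu_mix]; simp only [mix]; ring

lemma fst_sub_eq {p q : ℝ × ℝ} (h : p.1 ≠ q.1) (A B : ℝ × ℝ) :
    B.1 - A.1 = (q.1 - p.1) * (uu p q A - uu p q B) := by
  have : q.1 - p.1 ≠ 0 := sub_ne_zero.mpr h.symm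
  simp only [uu]; field_simp; ring

lemma uu_change {p q : ℝ × ℝ} (h : p.1 ≠ q.1) (A B z : ℝ × ℝ) :
    uu A B z = (uu p q z - uu p q B) / (uu p q A - uu p q B) := by
  have hd : q.1 - p.1 ≠ 0 := sub_ne_zero.mpr h.symm
  have h1 := fst_sub_eq h z B
  have h2 := fst_sub_eq h A B
  conv_lhs => unfold uu
  rw [h1, h2, mul_div_mul_left _ _ hd]

lemma off_change {p q : ℝ × ℝ} (h : p.1 ≠ q.1) (A B z : ℝ × ℝ) (G0 G1 : ℝ)
    (hne : uu p q A ≠ uu p q B)
    (hA : off p q A = G0 + G1 * uu p q A) (hB : off p q B = G0 + G1 * uu p q B) :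
    off A B z = off p q z - (G0 + G1 * uu p q z) := by
  have hd : uu p q A - uu p q B ≠ 0 := sub_ne_zero.mpr hne
  have e1 : A.2 - B.2 = (p.2 - q.2 + G1) * (uu p q A - uu p q B) := by
    simp only [off] at hA hB; linear_combination hA - hB
  have e2 : off A B z = z.2 - B.2 - (A.2 - B.2) * uu A B z := rfl
  rw [e2, uu_change h, e1, mul_assoc, mul_div_cancel₀ _ hd]
  simp only [off] at hB ⊢
  linear_combination -hB

/-- A finite family of points with a family of pairs (nodes) whose lines are balanced. -/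
structure Cfg where
  ι : Type
  [fι : Fintype ι]
  N : Type
  [fN : Fintype N]
  Sl : Type
  [fS : Fintype Sl]
  pt : ι → ℝ × ℝ
  lo : N → ι
  hi : N → ι
  slot : N → Sl
  ne1 : ∀ ν, (pt (lo ν)).1 ≠ (pt (hi ν)).1
  inj : ∀ ν ν', (lo ν' = lo ν ∨ lo ν' = hi ν) → (hi ν' = lo ν ∨ hi ν' = hi ν) → ν' = ν
  sinj : ∀ ν ν', hi ν = hi ν' → slot ν = slot ν' → ν = ν'
  bal : ∀ ν, ∑ r, sg (off (pt (lo ν)) (pt (hi ν)) (pt r)) = 0

attribute [instance] Cfg.fι Cfg.fN Cfg.fS

namespace Cfg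

variable (X : Cfg)

/-- `r` is one of the two points of the node -/
def On (ν : X.N) (r : X.ι) : Prop := r = X.lo ν ∨ r = X.hi ν

/-- offset of the point `r` from the line of the node -/
noncomputable def f (ν : X.N) (r : X.ι) : ℝ := off (X.pt (X.lo ν)) (X.pt (X.hi ν)) (X.pt r)

/-- normalised horizontal coordinate of the point `r` relative to the node -/
noncomputable def u (ν : X.N) (r : X.ι) : ℝ := uu (X.pt (X.lo ν)) (X.pt (X.hi ν)) (X.pt r)

def Marg (m : ℝ) : Prop := ∀ ν r, ¬ X.On ν r → m * (1 + |X.u ν r|) ≤ |X.f ν r|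

def Comp (κ : ℝ) : Prop := ∀ ν ν', ¬ X.On ν (X.hi ν') → |X.f ν (X.lo ν')| ≤ κ * |X.f ν (X.hi ν')|

def Gap (g : ℝ) : Prop := ∀ ν, g ≤ |(X.pt (X.hi ν)).1 - (X.pt (X.lo ν)).1|

def Bnd (B : ℝ) : Prop := ∀ r, |(X.pt r).1| ≤ B ∧ |(X.pt r).2| ≤ B

/-- configurations usable as the inner factor of a product -/
def Inner (R : ℝ) : Prop :=
  (∃ p : X.ι → ℤ, (∀ r, (X.pt r).1 = p r) ∧ ∑ r, p r = 0) ∧ X.Bnd R ∧
    (∀ ν r, ¬ X.On ν r → 1 ≤ |X.f ν r|) ∧ Even (Fintype.card X.ι)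

lemma lo_ne_hi (ν : X.N) : X.lo ν ≠ X.hi ν := fun h => X.ne1 ν (by rw [h])

lemma f_hi (ν : X.N) : X.f ν (X.hi ν) = 0 := off_right _ _

lemma f_lo (ν : X.N) : X.f ν (X.lo ν) = 0 := off_left (X.ne1 ν)

lemma u_hi (ν : X.N) : X.u ν (X.hi ν) = 0 := uu_right _ _

lemma u_lo (ν : X.N) : X.u ν (X.lo ν) = 1 := uu_left (X.ne1 ν)

lemma f_on {ν : X.N} {r : X.ι} (h : X.On ν r) : X.f ν r = 0 := by
  rcases h with rfl | rfl
  · exact X.f_lo ν
  · exact X.f_hi ν

lemma u_on {ν : X.N} {r : X.ι} (h : X.On ν r) : |X.u ν r| ≤ 1 := by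
  rcases h with rfl | rfl
  · rw [X.u_lo]; simp
  · rw [X.u_hi]; simp

lemma sum_sg_f (ν : X.N) : ∑ r, sg (X.f ν r) = 0 := X.bal ν

end Cfg

lemma sum_two (n t : ℕ) (ht : t ≤ n) (F : Fin n → ℤ) (a b : ℤ)
    (h1 : ∀ x, x.val < t → F x = a) (h2 : ∀ x, t ≤ x.val → F x = b) :
    ∑ x, F x = a * t + b * ((n : ℤ) - t) := by
  have hF : ∀ x : Fin n, F x = (fun y : ℕ => if y < t then a else b) x.val := by
    intro x
    by_cases h : x.val < t
    · simp [h, h1 x h]
    · simp [h, h2 x (not_lt.mp h)]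
  rw [Finset.sum_congr rfl (fun x _ => hF x), Fin.sum_univ_eq_sum_range
    (fun y : ℕ => if y < t then a else b) n]
  obtain ⟨d, rfl⟩ := Nat.exists_eq_add_of_le ht
  rw [Finset.sum_range_add]
  have e1 : ∑ x ∈ range t, (if x < t then a else b) = ∑ x ∈ range t, a :=
    Finset.sum_congr rfl (fun x hx => by simp [Finset.mem_range.mp hx])
  have e2 : ∑ x ∈ range d, (if t + x < t then a else b) = ∑ x ∈ range d, b :=
    Finset.sum_congr rfl (fun x _ => by simp)
  rw [e1, e2]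
  simp
  ring

lemma sum_three (n t : ℕ) (ht : t < n) (F : Fin n → ℤ) (a z b : ℤ)
    (h1 : ∀ x, x.val < t → F x = a) (h2 : ∀ x, x.val = t → F x = z)
    (h3 : ∀ x, t < x.val → F x = b) :
    ∑ x, F x = a * t + z + b * ((n : ℤ) - 1 - t) := by
  have := sum_two n t ht.le (fun x => if x = ⟨t, ht⟩ then b else F x) a b
    (fun x hx => by
      have : x ≠ ⟨t, ht⟩ := fun h => by simp [h] at hx
      simp [this, h1 x hx])
    (fun x hx => by
      by_cases h : x = ⟨t, ht⟩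
      · simp [h]
      · have : t < x.val := lt_of_le_of_ne hx (fun h' => h (Fin.ext h'.symm))
        simp [h, h3 x this])
  have e : ∀ x : Fin n, F x = (if x = ⟨t, ht⟩ then b else F x) + (if x = ⟨t, ht⟩ then z - b else 0) := by
    intro x
    by_cases h : x = ⟨t, ht⟩
    · simp [h, h2 ⟨t, ht⟩ rfl]
    · simp [h]
  rw [Finset.sum_congr rfl (fun x _ => e x), Finset.sum_add_distrib, this]
  simp
  ring

end Vale.Agent.P065
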