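import Mathlib

/-!
Halving lines and k-sets of finite planar point sets.
-/

namespace Vale.Agent.P065

/-- Twice the signed area of the triangle `p q r`. For `p ≠ q` the two open halfplanes bounded by
the line through `p` and `q` are the sets where this is positive and where it is negative. -/
def cross (p q r : ℝ × ℝ) : ℝ := (q.1 - p.1) * (r.2 - p.2) - (q.2 - p.2) * (r.1 - p.1)

/-- No three distinct points of `P` are collinear. -/
def NoThreeCollinear (P : Finset (ℝ × ℝ)) : Prop :=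
  ∀ p ∈ P, ∀ q ∈ P, ∀ r ∈ P, p ≠ q → p ≠ r → q ≠ r → ¬ Collinear ℝ ({p, q, r} : Set (ℝ × ℝ))

/-- `p` and `q` are distinct points of `P`, and each open halfplane of the line through them
contains exactly `(|P| - 2) / 2` points of `P`. -/
def IsHalvingPair (P : Finset (ℝ × ℝ)) (p q : ℝ × ℝ) : Prop :=
  p ∈ P ∧ q ∈ P ∧ p ≠ q ∧
    2 * {r | r ∈ P ∧ 0 < cross p q r}.ncard + 2 = P.card ∧
    2 * {r | r ∈ P ∧ cross p q r < 0}.ncard + 2 = P.card

/-- The number of unordered pairs of points of `P` spanning a halving line. -/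
noncomputable def halvingCount (P : Finset (ℝ × ℝ)) : ℕ :=
  {e : Sym2 (ℝ × ℝ) | ∃ p q, e = s(p, q) ∧ IsHalvingPair P p q}.ncard

/-- `S` is a `k`-element subset of `P` strictly separated from the rest of `P` by a line. -/
def IsKSet (P : Finset (ℝ × ℝ)) (k : ℕ) (S : Finset (ℝ × ℝ)) : Prop :=
  S ⊆ P ∧ S.card = k ∧ ∃ a b c : ℝ, (a ≠ 0 ∨ b ≠ 0) ∧
    (∀ r ∈ S, a * r.1 + b * r.2 < c) ∧ (∀ r ∈ P, r ∉ S → c < a * r.1 + b * r.2)

/-- The number of `k`-sets of `P`. -/
noncomputable def kSetCount (P : Finset (ℝ × ℝ)) (k : ℕ) : ℕ := {S | IsKSet P k S}.ncard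

end Vale.Agent.P065
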