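import Vale.Agent.P065.Prod
import Vale.Agent.P065.Base

/-!
Iterating the product.
-/

namespace Vale.Agent.P065

open Finset

namespace Cfg

lemma Marg.mono {X : Cfg} {m m' : ℝ} (h : X.Marg m) (hm : m' ≤ m) : X.Marg m' :=
  fun ν r hr => le_trans (mul_le_mul_of_nonneg_right hm (by positivity)) (h ν r hr)

lemma Comp.mono {X : Cfg} {κ κ' : ℝ} (h : X.Comp κ) (hm : κ ≤ κ') : X.Comp κ' :=
  fun ν ν' hr => le_trans (h ν ν' hr) (mul_le_mul_of_nonneg_right hm (abs_nonneg _))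

lemma Gap.mono {X : Cfg} {g g' : ℝ} (h : X.Gap g) (hm : g' ≤ g) : X.Gap g' :=
  fun ν => le_trans hm (h ν)

lemma Inner.mono {X : Cfg} {R R' : ℝ} (h : X.Inner R) (hm : R ≤ R') : X.Inner R' :=
  ⟨h.1, fun r => ⟨(h.2.1 r).1.trans hm, (h.2.1 r).2.trans hm⟩, h.2.2.1, h.2.2.2⟩

end Cfg

lemma exists_par (X Y : Cfg) (S E : ℕ) (R m κ : ℝ) (hY : Y.Inner R) (hS : 1 ≤ S) (hR : 1 ≤ R)
    (hRSE : R * S ≤ E) (hm : 0 < m) (hκ : 1 ≤ κ) (hM : X.Marg m) (hC : X.Comp κ) :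
    ∃ P : Par X Y, P.S = S ∧ P.E = E ∧ P.R = R ∧ P.m = m ∧ P.κ = κ := by
  obtain ⟨⟨p, hp, hsum⟩, hB, hm0, nh, hnh⟩ := hY
  exact ⟨⟨p, S, E, nh, R, m, κ, hp, hsum, hB, hm0, by rw [hnh]; ring, hS, hR, hRSE, hm, hκ, hM, hC⟩,
    rfl, rfl, rfl, rfl, rfl⟩

lemma step (X Y : Cfg) (T : ℝ) (R : ℕ) {m g B : ℝ} (hY : Y.Inner R) (hR : 1 ≤ R)
    (hT : 2880 ≤ T) (hΔ : 1 ≤ Fintype.card X.Sl)
    (hE : ((R * (32 * Fintype.card X.Sl) : ℕ) : ℝ) ≤ T) (hm : 0 < m) (hm1 : m ≤ 1) (hg : 0 < g)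
    (hB1 : 1 ≤ B) (hM : X.Marg m) (hC : X.Comp (T ^ 4)) (hG : X.Gap g) (hB : X.Bnd B) :
    ∃ Z : Cfg, Fintype.card Z.ι = Fintype.card X.ι * (Fintype.card Y.ι *
        (R * (32 * Fintype.card X.Sl)) * (70 * Fintype.card X.Sl + 1)) ∧
      Fintype.card Z.N = Fintype.card X.N * (32 * Fintype.card X.Sl *
        (R * (32 * Fintype.card X.Sl)) * Fintype.card Y.N) ∧
      Fintype.card Z.Sl = 32 * Fintype.card X.Sl * Fintype.card Y.Sl ∧
      Z.Marg (m / T ^ 26) ∧ Z.Comp (T ^ 4) ∧ Z.Gap (g / T ^ 26) ∧ Z.Bnd (2 * B) := by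
  have hT1 : 1 ≤ T := by linarith
  have hT0 : 0 < T := by linarith
  obtain ⟨P, h1, h2, h3, h4, h5⟩ := exists_par X Y (32 * Fintype.card X.Sl)
    (R * (32 * Fintype.card X.Sl)) R m (T ^ 4) hY (by omega) (by exact_mod_cast hR)
    (by push_cast; exact le_rfl) hm (one_le_pow₀ hT1) hM hC
  have hE' : (P.E : ℝ) ≤ T := by rw [h2]; exact hE
  have hR' : P.R ≤ T := P.R_le_E.trans hE'
  have hS' : (P.S : ℝ) ≤ T := P.S_le_E.trans hE'
  have hQ : P.Q ≤ 2 * T := by unfold Par.Q; linarith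
  have hK : P.K = 24 * T ^ 4 := by unfold Par.K; rw [h5]
  have hQK : P.Q * P.K ≤ 48 * T ^ 5 := by
    rw [hK]
    calc P.Q * (24 * T ^ 4) ≤ 2 * T * (24 * T ^ 4) :=
          mul_le_mul_of_nonneg_right hQ (by positivity)
      _ = 48 * T ^ 5 := by ring
  have hH : P.H ≤ 384 * T ^ 6 := by
    unfold Par.H
    calc 4 * P.Q * P.K * (P.S + 1) = 4 * (P.Q * P.K) * (P.S + 1) := by ring
      _ ≤ 4 * (48 * T ^ 5) * (2 * T) :=
          mul_le_mul (by linarith) (by linarith) (by positivity) (by positivity)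
      _ = 384 * T ^ 6 := by ring
  have hRQ : P.R * P.Q ≤ T * (2 * T) := mul_le_mul hR' hQ P.Q_pos.le hT0.le
  have hQK0 : 0 < P.Q * P.K := by linarith [P.QK_ge]
  refine ⟨P.prod, ?_, ?_, ?_, P.prod_marg.mono ?_, P.prod_comp.mono ?_, (P.prod_gap hG).mono ?_,
    P.prod_bnd hB1 (by rw [h4]; exact hm1) hB⟩
  · rw [P.prod_card, h1, h2]; ring
  · rw [P.prod_cardN, h1, h2]
  · rw [P.prod_cardS, h1]
  · have hKp := P.K_pos
    have hHp := P.H_pos
    have hRp := P.R_pos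
    have hQp := P.Q_pos
    have e : P.ε * P.ξ / (16 * (P.Q * P.K)) =
        m / (48 * P.K * P.H * (48 * (P.R * P.Q)) * (16 * (P.Q * P.K))) := by
      unfold Par.ε Par.ξ; rw [h4]; field_simp
    rw [e]
    refine div_le_div_of_nonneg_left hm.le (by positivity) ?_
    have h6 : (2880 : ℝ) ^ 9 ≤ T ^ 9 := pow_le_pow_left₀ (by norm_num) hT 9
    calc 48 * P.K * P.H * (48 * (P.R * P.Q)) * (16 * (P.Q * P.K))
        ≤ 48 * (24 * T ^ 4) * (384 * T ^ 6) * (48 * (T * (2 * T))) * (16 * (48 * T ^ 5)) := by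
          rw [← hK]; gcongr
      _ = (48 * 24 * 384 * 96 * 768) * T ^ 17 := by ring
      _ ≤ T ^ 9 * T ^ 17 := mul_le_mul_of_nonneg_right (by linarith) (by positivity)
      _ = T ^ 26 := by ring
  · have hRp := P.R_pos
    have hQp := P.Q_pos
    calc 1440 * P.E * (P.R * P.Q) ≤ 1440 * T * (T * (2 * T)) := by gcongr
      _ = 2880 * T ^ 3 := by ring
      _ ≤ T * T ^ 3 := mul_le_mul_of_nonneg_right hT (by positivity)
      _ = T ^ 4 := by ring
  · refine div_le_div_of_nonneg_left hg.le (by positivity) ?_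
    calc 3 * (P.Q * P.K) ≤ 144 * T ^ 5 := by linarith
      _ ≤ T * T ^ 5 := mul_le_mul_of_nonneg_right (by linarith) (by positivity)
      _ = T ^ 6 := by ring
      _ ≤ T ^ 26 := pow_le_pow_right₀ hT1 (by norm_num)

lemma steps (Y : Cfg) (R k : ℕ) (ρ T : ℝ) (hY : Y.Inner R) (hR : 1 ≤ R) (hT : 2880 ≤ T)
    (hD : 1 ≤ Fintype.card Y.Sl) (hn0 : 1 ≤ Fintype.card Y.ι) (hnT : (Fintype.card Y.ι : ℝ) ≤ T)
    (hρ0 : 0 ≤ ρ) (hρ : ρ * Fintype.card Y.ι ≤ Fintype.card Y.N)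
    (hE : ((R * (32 * Fintype.card Y.Sl) ^ k : ℕ) : ℝ) ≤ T) (l : ℕ) (hl : l ≤ k) :
    ∃ X : Cfg, (Fintype.card X.ι : ℝ) ≤ 2 * T ^ (4 * l) ∧ 1 ≤ Fintype.card X.ι ∧
      Even (Fintype.card X.ι) ∧ Fintype.card X.Sl = (32 * Fintype.card Y.Sl) ^ l ∧
      (9 / 20 * ρ) ^ l / 2 * Fintype.card X.ι ≤ Fintype.card X.N ∧
      X.Marg (1 / T ^ (26 * l)) ∧ X.Comp (T ^ 4) ∧ X.Gap (1 / T ^ (26 * l)) ∧ X.Bnd (2 ^ l) := by
  have hT1 : 1 ≤ T := by linarith
  have hT0 : 0 < T := by linarith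
  induction l with
  | zero =>
    have h2 : Fintype.card two.ι = 2 := Fintype.card_bool
    have h3 : Fintype.card two.N = 1 := Fintype.card_unit
    have h4 : Fintype.card two.Sl = 1 := Fintype.card_unit
    refine ⟨two, ?_, ?_, ?_, ?_, ?_, two_marg _, two_comp _, ?_, ?_⟩
    · rw [h2]; norm_num
    · rw [h2]; norm_num
    · rw [h2]; decide
    · rw [h4]; norm_num
    · rw [h2, h3]; norm_num
    · simpa using two_gap
    · simpa using two_bnd
  | succ l ih =>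
    obtain ⟨X, a1, a2, a3, a4, a5, a6, a7, a8, a9⟩ := ih (by omega)
    have hΔ : 1 ≤ Fintype.card X.Sl := by rw [a4]; exact Nat.one_le_pow _ _ (by omega)
    have hE1 : R * (32 * Fintype.card X.Sl) ≤ R * (32 * Fintype.card Y.Sl) ^ k := by
      refine Nat.mul_le_mul_left _ ?_
      calc 32 * Fintype.card X.Sl ≤ (32 * Fintype.card Y.Sl) * Fintype.card X.Sl :=
            Nat.mul_le_mul_right _ (by omega)
        _ = (32 * Fintype.card Y.Sl) ^ (l + 1) := by rw [a4]; ring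
        _ ≤ _ := Nat.pow_le_pow_right (by omega) hl
    have hE2 : ((R * (32 * Fintype.card X.Sl) : ℕ) : ℝ) ≤ T := le_trans (by exact_mod_cast hE1) hE
    have hp : (1 : ℝ) ≤ T ^ (26 * l) := one_le_pow₀ hT1
    obtain ⟨Z, b1, b2, b3, b4, b5, b6, b7⟩ := step X Y T R hY hR hT hΔ hE2 (by positivity)
      (by rw [div_le_one (by positivity)]; exact hp) (by positivity) (one_le_pow₀ (by norm_num))
      a6 a7 a8 a9
    have e : 1 / T ^ (26 * l) / T ^ 26 = 1 / T ^ (26 * (l + 1)) := by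
      rw [div_div, ← pow_add]; ring_nf
    rw [e] at b4 b6
    set Δ := Fintype.card X.Sl
    set E := R * (32 * Δ) with hEd
    have hE0 : 1 ≤ E := Nat.mul_pos hR (by omega)
    have hΔ' : (1 : ℝ) ≤ Δ := by exact_mod_cast hΔ
    refine ⟨Z, ?_, ?_, ?_, ?_, ?_, b4, b5, b6, by rw [pow_succ, mul_comm]; exact b7⟩
    · rw [b1]
      have h1 : ((70 * Δ + 1 : ℕ) : ℝ) ≤ T ^ 2 := by
        have h2 : 32 * Δ ≤ E := by rw [hEd]; exact Nat.le_mul_of_pos_left _ hR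
        have h3 : (32 * Δ : ℝ) ≤ E := by exact_mod_cast h2
        push_cast; nlinarith
      rw [Nat.cast_mul, Nat.cast_mul, Nat.cast_mul]
      calc _ ≤ 2 * T ^ (4 * l) * (T * T * T ^ 2) := by gcongr
        _ = _ := by ring
    · rw [b1]; exact Nat.mul_pos a2 (Nat.mul_pos (Nat.mul_pos hn0 hE0) (by omega))
    · rw [b1]; exact a3.mul_right _
    · rw [b3, a4]; ring
    · rw [b1, b2]
      have h1 : 9 / 20 * (70 * (Δ : ℝ) + 1) ≤ 32 * Δ := by linarith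
      have h2 : (0 : ℝ) ≤ (9 / 20 * ρ) ^ l / 2 * Fintype.card X.ι := by positivity
      calc (9 / 20 * ρ) ^ (l + 1) / 2 *
            ((Fintype.card X.ι * (Fintype.card Y.ι * E * (70 * Δ + 1)) : ℕ) : ℝ)
          = (9 / 20 * ρ) ^ l / 2 * Fintype.card X.ι *
            (9 / 20 * (70 * (Δ : ℝ) + 1) * E * (ρ * Fintype.card Y.ι)) := by push_cast; ring
        _ ≤ Fintype.card X.N * (32 * Δ * E * Fintype.card Y.N) := by gcongr
        _ = _ := by push_cast; ring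

/-- the exponent bounding the size at stage `m` -/
def zz (k m : ℕ) : ℕ := 74 * k * (114 * k) ^ m

lemma stage (k : ℕ) (hk : 60 ≤ k) (m : ℕ) :
    ∃ Y : Cfg, Y.Inner ((2 ^ zz k m : ℕ) : ℝ) ∧ Fintype.card Y.ι ≤ 2 ^ zz k m ∧
      1 ≤ Fintype.card Y.ι ∧ 1 ≤ Fintype.card Y.Sl ∧ 1024 * Fintype.card Y.Sl ≤ 2 ^ (17 * k ^ m) ∧
      20 / 9 * (53 / 50 * (53 / 50 : ℝ) ^ (k ^ m)) * Fintype.card Y.ι ≤ Fintype.card Y.N := by
  induction m with
  | zero =>
    have h2 : Fintype.card base.ι = 48 := Fintype.card_fin 48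
    have h3 : Fintype.card base.N = 120 := Fintype.card_fin 120
    have h4 : Fintype.card base.Sl = 120 := Fintype.card_fin 120
    have h5 : 2 ^ 74 ≤ 2 ^ zz k 0 := Nat.pow_le_pow_right (by norm_num) (by unfold zz; rw [pow_zero]; omega)
    refine ⟨base, base_inner.mono ?_, ?_, ?_, ?_, ?_, ?_⟩
    · have : 10 ^ 22 ≤ 2 ^ zz k 0 := le_trans (by norm_num) h5
      exact_mod_cast this
    · rw [h2]; exact le_trans (by norm_num) h5
    · rw [h2]; norm_num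
    · rw [h4]; norm_num
    · rw [h4]; norm_num
    · rw [h2, h3]; norm_num
  | succ m ih =>
    obtain ⟨Y, a1, a2, a3, a4, a5, a6⟩ := ih
    set D := Fintype.card Y.Sl
    set z := zz k m with hz
    have hkm : 1 ≤ k ^ m := Nat.one_le_pow _ _ (by omega)
    have hDk : 1024 * (32 * D) ^ k ≤ 2 ^ (17 * k ^ (m + 1)) := by
      have h1 : (1024 * D) ^ k ≤ (2 ^ (17 * k ^ m)) ^ k := Nat.pow_le_pow_left a5 k
      have h2 : 1024 ≤ 32 ^ k := le_trans (by norm_num) (Nat.pow_le_pow_right (by norm_num)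
        (by omega : 2 ≤ k))
      calc 1024 * (32 * D) ^ k ≤ 32 ^ k * (32 * D) ^ k := Nat.mul_le_mul_right _ h2
        _ = (1024 * D) ^ k := by rw [← mul_pow]; ring_nf
        _ ≤ _ := h1
        _ = _ := by rw [← pow_mul]; ring_nf
    set t : ℕ := 12 + z + 17 * k ^ (m + 1) with ht
    have hT : (2880 : ℝ) ≤ ((2 ^ t : ℕ) : ℝ) := by
      have : 2880 ≤ 2 ^ t := le_trans (by norm_num)
        (Nat.pow_le_pow_right (by norm_num) (by omega : 12 ≤ t))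
      exact_mod_cast this
    have hE : 2 ^ z * (32 * D) ^ k ≤ 2 ^ t := by
      calc 2 ^ z * (32 * D) ^ k ≤ 2 ^ z * 2 ^ (17 * k ^ (m + 1)) :=
            Nat.mul_le_mul_left _ (by omega)
        _ = 2 ^ (z + 17 * k ^ (m + 1)) := (pow_add 2 _ _).symm
        _ ≤ _ := Nat.pow_le_pow_right (by norm_num) (by omega)
    have hnT : Fintype.card Y.ι ≤ 2 ^ t :=
      a2.trans (Nat.pow_le_pow_right (by norm_num) (by omega))
    obtain ⟨X, b1, b2, b3, b4, b5, b6, b7, b8, b9⟩ := steps Y (2 ^ z) k _ ((2 ^ t : ℕ) : ℝ) a1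
      Nat.one_le_two_pow hT a4 a3 (by exact_mod_cast hnT) (by positivity) a6
      (by exact_mod_cast hE) k le_rfl
    set T : ℝ := ((2 ^ t : ℕ) : ℝ) with hTd
    have hT1 : 1 ≤ T := by linarith
    have hp : (1 : ℝ) ≤ T ^ (26 * k) := one_le_pow₀ hT1
    have hp1 : 1 / T ^ (26 * k) ≤ 1 := by rw [div_le_one (by positivity)]; exact hp
    obtain ⟨Z, c1, c2, c3, c4⟩ := X.round (by positivity) hp1 (by positivity) hp1
      (one_le_pow₀ (by norm_num)) b6 b8 b9 b3 b2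
    have hz' : 57 * k * t ≤ zz k (m + 1) := by
      have h1 : k ^ (m + 1) ≤ k * (114 * k) ^ m := by
        rw [pow_succ, mul_comm]
        exact Nat.mul_le_mul_left _ (Nat.pow_le_pow_left (by omega) m)
      have h2 : 1 ≤ k ^ (m + 1) := Nat.one_le_pow _ _ (by omega)
      have h3 : t ≤ 2 * z := by
        rw [ht, hz]; unfold zz
        have : 74 * k * (114 * k) ^ m = 74 * (k * (114 * k) ^ m) := by ring
        omega
      calc 57 * k * t ≤ 57 * k * (2 * z) := Nat.mul_le_mul_left _ h3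
        _ = _ := by rw [hz]; unfold zz; ring
    have hT57 : T ^ (57 * k) ≤ ((2 ^ zz k (m + 1) : ℕ) : ℝ) := by
      rw [hTd, ← Nat.cast_pow, ← pow_mul]
      exact_mod_cast Nat.pow_le_pow_right (by norm_num) (by rw [mul_comm t]; exact hz')
    have h144 : 36 * ((2 : ℝ) ^ k) ^ 2 ≤ T ^ k := by
      have h1 : (36 : ℝ) ≤ 36 ^ k := le_self_pow₀ (by norm_num) (by omega)
      calc 36 * ((2 : ℝ) ^ k) ^ 2 ≤ 36 ^ k * ((2 : ℝ) ^ k) ^ 2 := by gcongr
        _ = 144 ^ k := by rw [← pow_mul, mul_comm k 2, pow_mul, ← mul_pow]; norm_num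
        _ ≤ T ^ k := pow_le_pow_left₀ (by norm_num) (by linarith) k
    refine ⟨Z, c4.mono (le_trans ?_ hT57), ?_, by rw [c1]; exact b2, ?_, by rw [c3, b4]; exact hDk,
      ?_⟩
    · calc 18 * (Fintype.card X.ι : ℝ) * (2 ^ k) ^ 2 / (1 / T ^ (26 * k) * (1 / T ^ (26 * k)))
          = 18 * (Fintype.card X.ι : ℝ) * (2 ^ k) ^ 2 * T ^ (52 * k) := by
            field_simp; ring
        _ ≤ 18 * (2 * T ^ (4 * k)) * (2 ^ k) ^ 2 * T ^ (52 * k) := by gcongr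
        _ = 36 * (2 ^ k) ^ 2 * T ^ (56 * k) := by ring
        _ ≤ T ^ k * T ^ (56 * k) := by gcongr
        _ = T ^ (57 * k) := by ring
    · rw [c1]
      have h1 : (Fintype.card X.ι : ℝ) ≤ T ^ (57 * k) := by
        have h2 : (2 : ℝ) ≤ T ^ k := le_trans (by linarith) (le_self_pow₀ hT1 (by omega))
        calc _ ≤ 2 * T ^ (4 * k) := b1
          _ ≤ T ^ k * T ^ (4 * k) := by gcongr
          _ = T ^ (5 * k) := by ring
          _ ≤ _ := pow_le_pow_right₀ hT1 (by omega)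
      exact_mod_cast h1.trans hT57
    · rw [c3, b4]; exact Nat.one_le_pow _ _ (by omega)
    · rw [c1, c2]
      refine le_trans (mul_le_mul_of_nonneg_right ?_ (Nat.cast_nonneg _)) b5
      obtain ⟨j, rfl⟩ : ∃ j, k = j + 1 := ⟨k - 1, by omega⟩
      have h1 : 1 + (j : ℝ) * (3 / 50) ≤ (1 + 3 / 50) ^ j := one_add_mul_le_pow (by norm_num) j
      have h2 : (59 : ℝ) ≤ j := by exact_mod_cast (by omega : 59 ≤ j)
      have h3 : (40 / 9 : ℝ) ≤ (53 / 50) ^ j := by norm_num at h1 ⊢; linarith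
      have e : (9 / 20 * (20 / 9 * (53 / 50 * (53 / 50 : ℝ) ^ ((j + 1) ^ m)))) ^ (j + 1) =
          (53 / 50) ^ j * (53 / 50 * (53 / 50 : ℝ) ^ ((j + 1) ^ (m + 1))) := by
        rw [← mul_assoc, show (9 / 20 * (20 / 9) : ℝ) = 1 by norm_num, one_mul, mul_pow,
          ← pow_mul, pow_succ (j + 1) m]
        ring
      rw [e]
      have h4 : (0 : ℝ) ≤ 53 / 50 * (53 / 50 : ℝ) ^ ((j + 1) ^ (m + 1)) := by positivity
      nlinarith

end Vale.Agent.P065
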