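import Vale.Agent.P065.Perturb

/-!
From balanced pairs of a small configuration to k-sets of a large one.
-/

namespace Vale.Agent.P065

open Finset Filter Topology

lemma kset_lower {ι N : Type} [Fintype ι] [Fintype N] (pt : ι → ℝ × ℝ) (l r : N → ι) (k : ℕ)
    (hlt : ∀ ν, (pt (l ν)).1 < (pt (r ν)).1)
    (hne : ∀ ν z, z ≠ l ν → z ≠ r ν → cross (pt (l ν)) (pt (r ν)) (pt z) ≠ 0)
    (hk : ∀ ν, (univ.filter (fun z => cross (pt (l ν)) (pt (r ν)) (pt z) < 0)).card + 1 = k)
    (hinj : ∀ ν ν', l ν = l ν' → r ν = r ν' → ν = ν') :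
    ∃ P : Finset (ℝ × ℝ), P.card = Fintype.card ι ∧ NoThreeCollinear P ∧
      Fintype.card N ≤ kSetCount P k := by
  classical
  obtain ⟨q, h1, h2, h3, h4⟩ := perturb pt
  have hq : Function.Injective q := fun a b h => by
    by_contra h'; exact h1 a b h' (by rw [h])
  have hcard : (univ.image q).card = Fintype.card ι := by
    rw [Finset.card_image_of_injective _ hq, card_univ]
  refine ⟨univ.image q, hcard, noThree_image h2, ?_⟩
  have hlr : ∀ ν, l ν ≠ r ν := fun ν h => by have := hlt ν; rw [h] at this; exact lt_irrefl _ this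
  let c : N → ι → ℝ := fun ν z => cross (q (l ν)) (q (r ν)) (q z)
  have hcl : ∀ ν, c ν (l ν) = 0 := fun ν => cross_left _ _
  have hcr : ∀ ν, c ν (r ν) = 0 := fun ν => cross_right _ _
  have hc0 : ∀ ν z, z ≠ l ν → z ≠ r ν → c ν z ≠ 0 := fun ν z a b => h2 _ _ _ (hlr ν) a.symm b.symm
  have hneg : ∀ ν z, c ν z < 0 ↔ cross (pt (l ν)) (pt (r ν)) (pt z) < 0 := by
    intro ν z
    by_cases a : z = l ν
    · rw [a, hcl, cross_left]
    · by_cases b : z = r ν
      · rw [b, hcr, cross_right]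
      · rw [← sg_eq_neg_one, ← sg_eq_neg_one, h4 _ _ _ (hne ν z a b)]
  let S0 : N → Finset ι := fun ν => insert (l ν) (univ.filter (fun z => c ν z < 0))
  have hmem : ∀ ν z, z ∈ S0 ν ↔ z = l ν ∨ c ν z < 0 := fun ν z => by simp [S0]
  have hS : ∀ ν, IsKSet (univ.image q) k ((S0 ν).image q) := by
    intro ν
    refine ⟨image_subset_image (subset_univ _), ?_, ?_⟩
    · rw [card_image_of_injective _ hq, card_insert_of_notMem (by simp [hcl]), ← hk ν]
      congr 2
      exact filter_congr (fun z _ => hneg ν z)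
    · have hx := h3 _ _ (hlt ν)
      have hev : ∀ᶠ d in 𝓝[>] (0 : ℝ), ∀ z, c ν z ≠ 0 →
          sg (c ν z + d * ((q z).1 - ((q (l ν)).1 + (q (r ν)).1) / 2)) = sg (c ν z) := by
        refine eventually_all.mpr (fun z => ?_)
        by_cases h : c ν z = 0
        · exact Eventually.of_forall (fun e h' => absurd h h')
        · filter_upwards [ev_sg (G := fun d => c ν z +
            d * ((q z).1 - ((q (l ν)).1 + (q (r ν)).1) / 2)) (by fun_prop) (by simpa using h)]
            with d hd _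
          simpa using hd
      obtain ⟨d, hd, hd0⟩ := (hev.and self_mem_nhdsWithin).exists
      have hd0' : 0 < d := hd0
      refine ⟨d - ((q (r ν)).2 - (q (l ν)).2), (q (r ν)).1 - (q (l ν)).1,
        d * (((q (l ν)).1 + (q (r ν)).1) / 2) + ((q (r ν)).1 - (q (l ν)).1) * (q (l ν)).2 -
          ((q (r ν)).2 - (q (l ν)).2) * (q (l ν)).1, Or.inr (by linarith), ?_, ?_⟩
      · intro x hx'
        obtain ⟨z, hz, rfl⟩ := mem_image.mp hx'
        have key : c ν z + d * ((q z).1 - ((q (l ν)).1 + (q (r ν)).1) / 2) < 0 := by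
          rcases (hmem ν z).mp hz with h | h
          · rw [h, hcl]; nlinarith
          · rw [← sg_eq_neg_one, hd z h.ne, sg_neg h]
        simp only [c, cross] at key
        linarith
      · intro x hx' hx''
        obtain ⟨z, -, rfl⟩ := mem_image.mp hx'
        have hz : ¬ (z = l ν ∨ c ν z < 0) := fun h => hx'' (mem_image_of_mem _ ((hmem ν z).mpr h))
        have key : 0 < c ν z + d * ((q z).1 - ((q (l ν)).1 + (q (r ν)).1) / 2) := by
          by_cases h : z = r ν
          · rw [h, hcr]; nlinarith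
          · have h' := hc0 ν z (fun h' => hz (Or.inl h')) h
            have h'' : 0 < c ν z := lt_of_le_of_ne (not_lt.mp (fun h' => hz (Or.inr h'))) h'.symm
            rw [← sg_eq_one, hd z h', sg_pos h'']
        simp only [c, cross] at key
        linarith
  unfold kSetCount
  rw [← Nat.card_eq_fintype_card, ← Set.ncard_univ]
  refine Set.ncard_le_ncard_of_injOn (fun ν => (S0 ν).image q) (fun ν _ => hS ν)
    (fun ν _ ν' _ h => ?_) ?_
  · have h' : S0 ν = S0 ν' := image_injective hq h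
    have hin : ∀ ν z, z ∈ S0 ν → c ν z ≤ 0 := fun ν z hz => by
      rcases (hmem ν z).mp hz with a | a
      · rw [a, hcl]
      · exact a.le
    have hout : ∀ ν z, z ∉ S0 ν → 0 ≤ c ν z := fun ν z hz =>
      not_lt.mp (fun a => hz ((hmem ν z).mpr (Or.inr a)))
    have hl : ∀ ν, l ν ∈ S0 ν := fun ν => (hmem ν _).mpr (Or.inl rfl)
    have hr : ∀ ν, r ν ∉ S0 ν := fun ν a => by
      rcases (hmem ν _).mp a with a | a
      · exact hlr ν a.symm
      · rw [hcr] at a; exact lt_irrefl _ a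
    have a1 := hin ν (l ν') (h' ▸ hl ν')
    have a2 := hout ν (r ν') (h' ▸ hr ν')
    have a3 := hin ν' (l ν) (h' ▸ hl ν)
    have a4 := hout ν' (r ν) (h' ▸ hr ν)
    have e : c ν (r ν') - c ν (l ν') + (c ν' (r ν) - c ν' (l ν)) = 0 := by
      simp only [c, cross]; ring
    have b1 : c ν (l ν') = 0 := by linarith
    have b2 : c ν (r ν') = 0 := by linarith
    refine hinj _ _ ?_ ?_
    · by_contra hc
      refine hc0 ν (l ν') (Ne.symm hc) (fun a => hr ν ?_) b1
      rw [← a, h']; exact hl ν'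
    · by_contra hc
      refine hc0 ν (r ν') (fun a => hr ν' ?_) (Ne.symm hc) b2
      rw [a, ← h']; exact hl ν
  · refine ((univ.image q).powerset.finite_toSet).subset ?_
    intro S hS'
    exact Finset.mem_coe.mpr (mem_powerset.mpr hS'.1)

/-- a small flat copy of the point `p` placed along the tangent of a parabola -/
def cp (e i : ℝ) (p : ℝ × ℝ) : ℝ × ℝ := (i + e * p.1, i ^ 2 + 2 * i * (e * p.1) + e ^ 2 * p.2)

lemma cross_cp (e i : ℝ) (p q r : ℝ × ℝ) :
    cross (cp e i p) (cp e i q) (cp e i r) = e ^ 3 * cross p q r := by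
  simp only [cross, cp]; ring

lemma cross_cp_far (e i : ℝ) (p q z : ℝ × ℝ) : cross (cp e i p) (cp e i q) z =
    e * ((q.1 - p.1) * (z.2 - i ^ 2 - 2 * i * (z.1 - i) - e ^ 2 * p.2) -
      e * (q.2 - p.2) * (z.1 - i - e * p.1)) := by
  simp only [cross, cp]; ring

lemma ev_far (i j : ℝ) (hij : i ≠ j) {p q : ℝ × ℝ} (h : p.1 < q.1) (z : ℝ × ℝ) :
    ∀ᶠ e in 𝓝[>] (0 : ℝ), 0 < cross (cp e i p) (cp e i q) (cp e j z) := by
  have h0 : 0 < (q.1 - p.1) * (j - i) ^ 2 :=
    mul_pos (by linarith) (pow_pos (abs_pos.mpr (sub_ne_zero.mpr hij.symm)) 2 |>.trans_eq (sq_abs _))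
  let G : ℝ → ℝ := fun e => (q.1 - p.1) * ((cp e j z).2 - i ^ 2 - 2 * i * ((cp e j z).1 - i) -
    e ^ 2 * p.2) - e * (q.2 - p.2) * ((cp e j z).1 - i - e * p.1)
  have hG : G 0 = (q.1 - p.1) * (j - i) ^ 2 := by simp only [G, cp]; ring
  filter_upwards [ev_sg (G := G) (by simp only [G, cp]; fun_prop) (by rw [hG]; exact h0.ne'),
    self_mem_nhdsWithin] with e he he0
  rw [hG, sg_pos h0, sg_eq_one] at he
  rw [cross_cp_far]
  exact mul_pos he0 he

theorem Cfg.ksets (X : Cfg) (hX : X.NZ) (k t s : ℕ) (hk : Fintype.card X.ι = 2 * k) :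
    ∃ P : Finset (ℝ × ℝ), P.card = t * (2 * k) + s ∧ NoThreeCollinear P ∧
      t * Fintype.card X.N ≤ kSetCount P k := by
  classical
  let l : X.N → X.ι := fun ν => if (X.pt (X.lo ν)).1 < (X.pt (X.hi ν)).1 then X.lo ν else X.hi ν
  let r : X.N → X.ι := fun ν => if (X.pt (X.lo ν)).1 < (X.pt (X.hi ν)).1 then X.hi ν else X.lo ν
  have hlt : ∀ ν, (X.pt (l ν)).1 < (X.pt (r ν)).1 := by
    intro ν
    simp only [l, r]
    split_ifs with h
    · exact h
    · exact lt_of_le_of_ne (not_lt.mp h) (X.ne1 ν).symm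
  have hlr : ∀ ν, (l ν = X.lo ν ∧ r ν = X.hi ν) ∨ (l ν = X.hi ν ∧ r ν = X.lo ν) := by
    intro ν
    simp only [l, r]
    split_ifs <;> simp
  have hc : ∀ ν z, cross (X.pt (l ν)) (X.pt (r ν)) (X.pt z) =
      ((X.pt (r ν)).1 - (X.pt (l ν)).1) * X.f ν z := by
    intro ν z
    rcases hlr ν with ⟨a, b⟩ | ⟨a, b⟩
    · rw [a, b, cross_eq_off (X.ne1 ν)]; rfl
    · have := cross_eq_off (X.ne1 ν) (X.pt z)
      rw [a, b]; unfold Cfg.f
      simp only [cross] at this ⊢
      linear_combination -this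
  let idx : (Fin t × X.ι) ⊕ Fin s → ℝ := Sum.elim (fun x => x.1.val) (fun _ => -1)
  let base : (Fin t × X.ι) ⊕ Fin s → ℝ × ℝ := Sum.elim (fun x => X.pt x.2) (fun _ => (0, 0))
  have hev : ∀ᶠ e in 𝓝[>] (0 : ℝ), ∀ (n : Fin t × X.N) (z : (Fin t × X.ι) ⊕ Fin s),
      (n.1.val : ℝ) ≠ idx z → 0 < cross (cp e n.1.val (X.pt (l n.2))) (cp e n.1.val (X.pt (r n.2)))
        (cp e (idx z) (base z)) := by
    refine eventually_all.mpr (fun n => eventually_all.mpr (fun z => ?_))
    by_cases h : (n.1.val : ℝ) = idx z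
    · exact Eventually.of_forall (fun e h' => absurd h h')
    · exact (ev_far _ _ h (hlt n.2) _).mono (fun e he _ => he)
  obtain ⟨e, he, he0⟩ := (hev.and self_mem_nhdsWithin).exists
  have he0' : 0 < e := he0
  have hcase : ∀ (i : Fin t) (z : (Fin t × X.ι) ⊕ Fin s),
      (∃ w, z = Sum.inl (i, w)) ∨ (i.val : ℝ) ≠ idx z := by
    rintro i (⟨j, w⟩ | j)
    · by_cases h : j = i
      · exact Or.inl ⟨w, by rw [h]⟩
      · exact Or.inr (fun h' => h (Fin.ext (Nat.cast_injective (R := ℝ) h').symm))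
    · refine Or.inr (fun h' => ?_)
      have : (0 : ℝ) ≤ i.val := Nat.cast_nonneg _
      simp only [idx, Sum.elim_inr] at h'
      linarith
  have hown : ∀ (n : Fin t × X.N) (w : X.ι), cross (cp e n.1.val (X.pt (l n.2)))
      (cp e n.1.val (X.pt (r n.2))) (cp e n.1.val (X.pt w)) =
        (e ^ 3 * ((X.pt (r n.2)).1 - (X.pt (l n.2)).1)) * X.f n.2 w := by
    intro n w; rw [cross_cp, hc]; ring
  have hpos : ∀ ν, 0 < e ^ 3 * ((X.pt (r ν)).1 - (X.pt (l ν)).1) := fun ν =>
    mul_pos (by positivity) (sub_pos.mpr (hlt ν))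
  obtain ⟨P, h1, h2, h3⟩ := kset_lower (N := Fin t × X.N) (fun z => cp e (idx z) (base z))
    (fun n => Sum.inl (n.1, l n.2)) (fun n => Sum.inl (n.1, r n.2)) k
    (fun n => by
      simp only [cp, idx, base, Sum.elim_inl]
      nlinarith [hlt n.2])
    (fun n z a b => by
      rcases hcase n.1 z with ⟨w, rfl⟩ | h
      · refine (hown n w).trans_ne (mul_ne_zero (hpos n.2).ne' (hX n.2 w ?_))
        have a' : w ≠ l n.2 := fun h => a (by rw [h])
        have b' : w ≠ r n.2 := fun h => b (by rw [h])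
        rcases hlr n.2 with ⟨c, d⟩ | ⟨c, d⟩
        · rw [c] at a'; rw [d] at b'; exact fun h => h.elim a' b'
        · rw [c] at a'; rw [d] at b'; exact fun h => h.elim b' a'
      · exact (he n z h).ne')
    (fun n => by
      have c2 := (count_sides (X.f n.2) (X.lo_ne_hi n.2) (X.f_lo _) (X.f_hi _)
        (fun w a b => hX n.2 w (fun h => h.elim a b)) (X.sum_sg_f n.2)).2
      have e1 : (univ.filter (fun z : (Fin t × X.ι) ⊕ Fin s =>
          cross (cp e (idx (Sum.inl (n.1, l n.2))) (base (Sum.inl (n.1, l n.2))))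
            (cp e (idx (Sum.inl (n.1, r n.2))) (base (Sum.inl (n.1, r n.2))))
            (cp e (idx z) (base z)) < 0)) =
          (univ.filter (fun w => X.f n.2 w < 0)).image (fun w => Sum.inl (n.1, w)) := by
        ext z
        simp only [mem_filter, mem_univ, true_and, mem_image]
        constructor
        · intro h
          rcases hcase n.1 z with ⟨w, rfl⟩ | h'
          · refine ⟨w, ?_, rfl⟩
            have h'' := (hown n w).symm.trans_lt h
            by_contra hc'
            exact absurd h'' (not_lt.mpr (mul_nonneg (hpos n.2).le (not_lt.mp hc')))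
          · exact absurd h (he n z h').not_gt
        · rintro ⟨w, hw, rfl⟩
          exact (hown n w).trans_lt (mul_neg_of_pos_of_neg (hpos n.2) hw)
      rw [e1, card_image_of_injective _ (fun a b h => by simpa using h)]
      omega)
    (fun n n' a b => by
      simp only [Sum.inl.injEq, Prod.mk.injEq] at a b
      refine Prod.ext a.1 (X.inj _ _ ?_ ?_)
      · rcases hlr n.2 with ⟨c, d⟩ | ⟨c, d⟩ <;> rcases hlr n'.2 with ⟨c', d'⟩ | ⟨c', d'⟩
        · exact Or.inl (by rw [← c, ← c', a.2])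
        · exact Or.inr (by rw [← c, ← c', a.2])
        · exact Or.inr (by rw [← d, ← d', b.2])
        · exact Or.inl (by rw [← d, ← d', b.2])
      · rcases hlr n.2 with ⟨c, d⟩ | ⟨c, d⟩ <;> rcases hlr n'.2 with ⟨c', d'⟩ | ⟨c', d'⟩
        · exact Or.inr (by rw [← d, ← d', b.2])
        · exact Or.inl (by rw [← d, ← d', b.2])
        · exact Or.inl (by rw [← c, ← c', a.2])
        · exact Or.inr (by rw [← c, ← c', a.2]))
  refine ⟨P, ?_, h2, ?_⟩
  · rw [h1]; simp [hk]
  · simpa using h3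

end Vale.Agent.P065
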