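import Vale.Agent.P065.Iter

/-!
Choice of parameters, and padding to an arbitrary even number of points.
-/

namespace Vale.Agent.P065

open Finset

/-- no third point lies on the line of a node -/
def Cfg.NZ (X : Cfg) : Prop := ∀ ν r, ¬ X.On ν r → X.f ν r ≠ 0

lemma Cfg.Marg.nz {X : Cfg} {m : ℝ} (hm : 0 < m) (h : X.Marg m) : X.NZ := by
  intro ν r hr h0
  have := h ν r hr
  rw [h0, abs_zero] at this
  have : 0 < m * (1 + |X.u ν r|) := by positivity
  linarith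

lemma last (Y : Cfg) {R ρ : ℝ} (hY : Y.Inner R) (hD : 1 ≤ Fintype.card Y.Sl)
    (hn0 : 1 ≤ Fintype.card Y.ι) (hρ0 : 0 ≤ ρ) (hρ : ρ * Fintype.card Y.ι ≤ Fintype.card Y.N)
    (n : ℕ) (hn : 2 ^ 14 * Fintype.card Y.Sl ^ 2 * Fintype.card Y.ι ≤ n) :
    ∃ X : Cfg, Fintype.card X.ι ≤ n ∧ Even (Fintype.card X.ι) ∧ X.NZ ∧
      9 / 80 * ρ * n ≤ Fintype.card X.N := by
  set D := Fintype.card Y.Sl
  set n1 := Fintype.card Y.ι
  have hf := hY.2.2.1
  set su : ℝ := ∑ ν, ∑ r, |Y.u ν r| with hsu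
  set sf : ℝ := ∑ ν, ∑ r, |Y.f ν r| with hsf
  have hu : ∀ ν r, |Y.u ν r| ≤ su := fun ν r =>
    (Finset.single_le_sum (f := fun r => |Y.u ν r|) (fun _ _ => abs_nonneg _) (mem_univ r)).trans
      (Finset.single_le_sum (f := fun ν => ∑ r, |Y.u ν r|)
        (fun _ _ => Finset.sum_nonneg (fun _ _ => abs_nonneg _)) (mem_univ ν))
  have hff : ∀ ν r, |Y.f ν r| ≤ sf := fun ν r =>
    (Finset.single_le_sum (f := fun r => |Y.f ν r|) (fun _ _ => abs_nonneg _) (mem_univ r)).trans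
      (Finset.single_le_sum (f := fun ν => ∑ r, |Y.f ν r|)
        (fun _ _ => Finset.sum_nonneg (fun _ _ => abs_nonneg _)) (mem_univ ν))
  have hsu0 : 0 ≤ su := Finset.sum_nonneg (fun _ _ => Finset.sum_nonneg (fun _ _ => abs_nonneg _))
  have hsf0 : 0 ≤ sf := Finset.sum_nonneg (fun _ _ => Finset.sum_nonneg (fun _ _ => abs_nonneg _))
  have hM : Y.Marg (1 / (1 + su)) := by
    intro ν r h
    refine le_trans ?_ (hf ν r h)
    rw [div_mul_eq_mul_div, one_mul, div_le_one (by positivity)]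
    linarith [hu ν r]
  have hC : Y.Comp (1 + sf) := by
    intro ν ν' h
    have := hf ν _ h
    nlinarith [hff ν (Y.lo ν')]
  set U := n1 * (2 * (70 * D + 1)) with hU
  have hU0 : 0 < U := Nat.mul_pos hn0 (by omega)
  have hUn : 64 * D * U ≤ n := by
    refine le_trans ?_ hn
    have : 64 * D * U = (128 * (70 * D + 1)) * D * n1 := by rw [hU]; ring
    rw [this, pow_two, ← mul_assoc]
    exact Nat.mul_le_mul_right _ (Nat.mul_le_mul_right _ (by omega))
  set E := n / U with hE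
  have hE1 : 64 * D ≤ E := (Nat.le_div_iff_mul_le hU0).mpr hUn
  have hE2 : U * E ≤ n := Nat.mul_div_le n U
  have hE3 : n < U * (E + 1) := Nat.lt_mul_div_succ n hU0
  obtain ⟨P, h1, h2, -, -, -⟩ := exists_par Y two (32 * D) E 1 _ _ two_inner (by omega) le_rfl
    (by rw [one_mul]; exact_mod_cast (by omega)) (by positivity) (by linarith) hM hC
  have c2 : Fintype.card two.ι = 2 := Fintype.card_bool
  have c3 : Fintype.card two.N = 1 := Fintype.card_unit
  have hc : Fintype.card P.prod.ι = U * E := by rw [P.prod_card, h1, h2, c2, hU]; ring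
  refine ⟨P.prod, by rw [hc]; exact hE2, ?_, P.prod_marg.nz ?_, ?_⟩
  · rw [hc, hU]; exact ((even_two.mul_right _).mul_left _).mul_right _
  · have := P.ε_pos; have := P.ξ_pos; have := P.QK_ge; positivity
  · rw [P.prod_cardN, h1, h2, c3]
    have h3 : n ≤ 2 * (U * E) := by
      have : U * 1 ≤ U * E := Nat.mul_le_mul_left _ (by omega)
      have : U * (E + 1) = U * E + U := by ring
      omega
    have h4 : (n : ℝ) ≤ 2 * (n1 * (2 * (70 * D + 1)) * E) := by exact_mod_cast h3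
    have hD' : (1 : ℝ) ≤ D := by exact_mod_cast hD
    have h5 : 9 / 20 * (70 * (D : ℝ) + 1) ≤ 32 * D := by linarith
    calc 9 / 80 * ρ * n ≤ 9 / 80 * ρ * (2 * (n1 * (2 * (70 * D + 1)) * E)) := by gcongr
      _ = ρ * n1 * (9 / 20 * (70 * (D : ℝ) + 1) * E) := by ring
      _ ≤ Fintype.card Y.N * (32 * D * E) := by gcongr
      _ = _ := by push_cast; ring

lemma choose_params (L : ℝ) (hL : Real.exp 121 ≤ L) :
    ∃ k m : ℕ, 60 ≤ k ∧ (2 * zz k m : ℝ) ≤ L ∧
      8 * Real.exp (L * Real.exp (-11 * √(Real.log L))) ≤ (53 / 50 : ℝ) ^ (k ^ m) := by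
  have hL0 : 0 < L := lt_of_lt_of_le (Real.exp_pos _) hL
  set s := √(Real.log L) with hs
  have hl : 121 ≤ Real.log L := (Real.le_log_iff_exp_le hL0).mpr hL
  have hs11 : 11 ≤ s := Real.le_sqrt_of_sq_le (by linarith)
  have hss : s ^ 2 = Real.log L := Real.sq_sqrt (by linarith)
  have hLe : L = Real.exp (s ^ 2) := by rw [hss, Real.exp_log hL0]
  have he1 : (2.7 : ℝ) ≤ Real.exp 1 := le_trans (by norm_num) Real.exp_one_gt_d9.le
  have hen : ∀ j : ℕ, (2.7 : ℝ) ^ j ≤ Real.exp j := fun j => by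
    rw [← Real.exp_one_pow]; exact pow_le_pow_left₀ (by norm_num) he1 j
  have hes : (50000 : ℝ) ≤ Real.exp s :=
    le_trans (le_trans (by norm_num) (hen 11)) (Real.exp_le_exp.mpr (by exact_mod_cast hs11))
  set k := ⌈Real.exp s⌉₊ with hk
  have hk1 : Real.exp s ≤ k := Nat.le_ceil _
  have hk2 : (k : ℝ) ≤ 2 * Real.exp s := by
    have := Nat.ceil_lt_add_one (Real.exp_pos s).le
    linarith
  have hk60 : 60 ≤ k := by exact_mod_cast (by linarith : (60 : ℝ) ≤ k)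
  have hex : ∃ m : ℕ, L < 2 * zz k (m + 1) := by
    refine ⟨⌈L⌉₊, ?_⟩
    have h1 : ⌈L⌉₊ + 1 < (114 * k) ^ (⌈L⌉₊ + 1) := Nat.lt_pow_self (by omega)
    have h2 : (114 * k) ^ (⌈L⌉₊ + 1) ≤ zz k (⌈L⌉₊ + 1) := by
      unfold zz; exact Nat.le_mul_of_pos_left _ (by omega)
    have h3 : ((⌈L⌉₊ : ℕ) : ℝ) ≤ zz k (⌈L⌉₊ + 1) := by exact_mod_cast (by omega)
    have := Nat.le_ceil L
    linarith
  classical
  set m := Nat.find hex with hm
  have hm1 : L < 2 * zz k (m + 1) := Nat.find_spec hex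
  have hm2 : (2 * zz k m : ℝ) ≤ L := by
    rcases Nat.eq_zero_or_pos m with h | h
    · rw [h]; unfold zz
      have h1 : Real.exp s * Real.exp s ≤ L := by
        rw [← Real.exp_add, hLe]; exact Real.exp_le_exp.mpr (by nlinarith)
      push_cast
      nlinarith
    · have := Nat.find_min hex (m := m - 1) (by omega)
      rw [Nat.sub_add_cancel h] at this
      exact not_lt.mp this
  refine ⟨k, m, hk60, hm2, ?_⟩
  have hkm : ((k ^ m : ℕ) : ℝ) ≤ L := by
    have h1 : k ^ m ≤ 2 * zz k m := by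
      unfold zz
      calc k ^ m ≤ (114 * k) ^ m := Nat.pow_le_pow_left (by omega) m
        _ ≤ 2 * (74 * k) * (114 * k) ^ m := Nat.le_mul_of_pos_left _ (by omega)
        _ = _ := by ring
    exact le_trans (by exact_mod_cast h1) hm2
  have hms : (m : ℝ) ≤ s := by
    have h1 : Real.exp (m * s) ≤ Real.exp (s ^ 2) := by
      rw [← hLe, Real.exp_nat_mul]
      refine le_trans (pow_le_pow_left₀ (Real.exp_pos s).le hk1 m) ?_
      exact_mod_cast hkm
    have h2 := Real.exp_le_exp.mp h1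
    nlinarith
  have h114 : (114 : ℝ) ^ m ≤ Real.exp s ^ 5 := by
    calc (114 : ℝ) ^ m ≤ Real.exp 5 ^ m :=
          pow_le_pow_left₀ (by norm_num) (by have := hen 5; norm_num at this; linarith) m
      _ = Real.exp (m * 5) := (Real.exp_nat_mul _ _).symm
      _ ≤ Real.exp ((5 : ℕ) * s) := Real.exp_le_exp.mpr (by push_cast; linarith)
      _ = _ := Real.exp_nat_mul _ _
  have hlow : L ≤ Real.exp s ^ 10 * ((k ^ m : ℕ) : ℝ) := by
    have hx : (0 : ℝ) < Real.exp s := Real.exp_pos s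
    have h1 : (67488 : ℝ) ≤ Real.exp s ^ 3 :=
      le_trans (by norm_num) (pow_le_pow_left₀ (by norm_num) hes 3)
    calc L ≤ 2 * zz k (m + 1) := hm1.le
      _ = 16872 * (k : ℝ) ^ 2 * 114 ^ m * ((k ^ m : ℕ) : ℝ) := by unfold zz; push_cast; ring
      _ ≤ 16872 * (2 * Real.exp s) ^ 2 * Real.exp s ^ 5 * ((k ^ m : ℕ) : ℝ) := by gcongr
      _ = 67488 * Real.exp s ^ 7 * ((k ^ m : ℕ) : ℝ) := by ring
      _ ≤ Real.exp s ^ 3 * Real.exp s ^ 7 * ((k ^ m : ℕ) : ℝ) := by gcongr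
      _ = _ := by ring
  set x := Real.exp s with hx
  have hx0 : 0 < x := Real.exp_pos s
  have e11 : Real.exp (-11 * s) = 1 / x ^ 11 := by
    rw [hx, ← Real.exp_nat_mul, one_div, ← Real.exp_neg]; congr 1; push_cast; ring
  have hLx : x ^ 11 ≤ L := by
    rw [hx, ← Real.exp_nat_mul, hLe]; exact Real.exp_le_exp.mpr (by push_cast; nlinarith)
  set N : ℝ := ((k ^ m : ℕ) : ℝ) with hN
  have hA : L * (1 / x ^ 11) ≤ N / 50000 := by
    rw [mul_one_div, div_le_div_iff₀ (by positivity) (by norm_num)]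
    have hN0 : 0 ≤ N := Nat.cast_nonneg _
    calc L * 50000 ≤ x ^ 10 * N * x := by gcongr
      _ = _ := by ring
  have hB : 50000 ≤ N := by
    have h1 : x ^ 10 * x ≤ x ^ 10 * N := by rw [← pow_succ]; exact hLx.trans hlow
    have := le_of_mul_le_mul_left h1 (by positivity)
    linarith
  have h53 : Real.exp (1 / 20) ≤ 53 / 50 := by
    have := Real.exp_bound_div_one_sub_of_interval (x := 1 / 20) (by norm_num) (by norm_num)
    exact this.trans (by norm_num)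
  have h8 : (8 : ℝ) ≤ Real.exp 3 := by
    have := hen 3
    norm_num at this
    linarith
  rw [e11]
  calc 8 * Real.exp (L * (1 / x ^ 11)) ≤ Real.exp 3 * Real.exp (N / 50000) := by gcongr
    _ = Real.exp (3 + N / 50000) := (Real.exp_add _ _).symm
    _ ≤ Real.exp (((k ^ m : ℕ) : ℝ) * (1 / 20)) := Real.exp_le_exp.mpr (by rw [← hN]; linarith)
    _ = Real.exp (1 / 20) ^ (k ^ m) := Real.exp_nat_mul _ _
    _ ≤ _ := pow_le_pow_left₀ (Real.exp_pos _).le h53 _

/-- adding `j` points far above and `j` points far below -/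
lemma Cfg.pad (X : Cfg) (hX : X.NZ) (j : ℕ) :
    ∃ Z : Cfg, Fintype.card Z.ι = Fintype.card X.ι + 2 * j ∧ Fintype.card Z.N = Fintype.card X.N ∧
      Z.NZ := by
  set L : ℝ := 1 + ∑ ν, |off (X.pt (X.lo ν)) (X.pt (X.hi ν)) (0, 0)| with hL
  have hb : ∀ ν, |off (X.pt (X.lo ν)) (X.pt (X.hi ν)) (0, 0)| < L := fun ν => by
    have := Finset.single_le_sum (f := fun ν => |off (X.pt (X.lo ν)) (X.pt (X.hi ν)) (0, 0)|)
      (fun _ _ => abs_nonneg _) (mem_univ ν)
    linarith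
  have hoff : ∀ (p q : ℝ × ℝ) (y : ℝ), off p q (0, y) = off p q (0, 0) + y := fun p q y => by
    simp only [off, uu]; ring
  have hup : ∀ ν, 0 < off (X.pt (X.lo ν)) (X.pt (X.hi ν)) (0, L) := fun ν => by
    rw [hoff]; linarith [(abs_lt.mp (hb ν)).1]
  have hdn : ∀ ν, off (X.pt (X.lo ν)) (X.pt (X.hi ν)) (0, -L) < 0 := fun ν => by
    rw [hoff]; linarith [(abs_lt.mp (hb ν)).2]
  refine ⟨{ ι := X.ι ⊕ (Fin j ⊕ Fin j), N := X.N, Sl := X.Sl,
            pt := Sum.elim X.pt (Sum.elim (fun _ => (0, L)) (fun _ => (0, -L))),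
            lo := fun ν => Sum.inl (X.lo ν), hi := fun ν => Sum.inl (X.hi ν), slot := X.slot,
            ne1 := X.ne1, inj := ?_, sinj := ?_, bal := ?_ }, ?_, rfl, ?_⟩
  · intro ν ν' h1 h2
    simp only [Sum.inl.injEq] at h1 h2
    exact X.inj ν ν' h1 h2
  · intro ν ν' h1 h2
    exact X.sinj ν ν' (Sum.inl.inj h1) h2
  · intro ν
    simp only [Fintype.sum_sum_type, Sum.elim_inl, Sum.elim_inr, X.bal ν, sg_pos (hup ν),
      sg_neg (hdn ν)]
    simp
  · change Fintype.card (X.ι ⊕ (Fin j ⊕ Fin j)) = _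
    simp only [Fintype.card_sum, Fintype.card_fin]; ring
  · rintro ν (r | r | r) h
    · exact hX ν r (fun h' => h (h'.imp (congrArg Sum.inl) (congrArg Sum.inl)))
    · exact (hup ν).ne'
    · exact (hdn ν).ne

theorem main (y n : ℕ) (hy : Real.exp (Real.exp 121) ≤ y) (hn : y ≤ n) (hev : Even n) :
    ∃ X : Cfg, Fintype.card X.ι = n ∧ X.NZ ∧
      2 * n * Real.exp (Real.log y * Real.exp (-11 * √(Real.log (Real.log y)))) ≤
        Fintype.card X.N := by
  have hy0 : (0 : ℝ) < y := lt_of_lt_of_le (Real.exp_pos _) hy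
  obtain ⟨k, m, hk, h1, h2⟩ := choose_params (Real.log y) ((Real.le_log_iff_exp_le hy0).mpr hy)
  obtain ⟨Y, a1, a2, a3, a4, a5, a6⟩ := stage k hk m
  have h3 : 2 ^ (2 * zz k m) ≤ y := by
    have h4 : (2 : ℝ) ^ (2 * zz k m) ≤ Real.exp 1 ^ (2 * zz k m) :=
      pow_le_pow_left₀ (by norm_num) (le_trans (by norm_num) Real.exp_one_gt_d9.le) _
    rw [Real.exp_one_pow] at h4
    have h5 : Real.exp ((2 * zz k m : ℕ) : ℝ) ≤ y := by
      rw [← Real.exp_log hy0]; exact Real.exp_le_exp.mpr (by push_cast; exact h1)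
    exact_mod_cast h4.trans h5
  have h4 : 2 ^ 14 * Fintype.card Y.Sl ^ 2 * Fintype.card Y.ι ≤ n := by
    have h5 : 34 * k ^ m ≤ zz k m := by
      unfold zz
      exact Nat.mul_le_mul (by omega) (Nat.pow_le_pow_left (by omega) m)
    calc 2 ^ 14 * Fintype.card Y.Sl ^ 2 * Fintype.card Y.ι
        ≤ (1024 * Fintype.card Y.Sl) ^ 2 * 2 ^ zz k m := by
          refine Nat.mul_le_mul ?_ a2
          rw [mul_pow]; exact Nat.mul_le_mul_right _ (by norm_num)
      _ ≤ (2 ^ (17 * k ^ m)) ^ 2 * 2 ^ zz k m := by gcongr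
      _ = 2 ^ (34 * k ^ m + zz k m) := by rw [← pow_mul, ← pow_add]; ring_nf
      _ ≤ 2 ^ (2 * zz k m) := Nat.pow_le_pow_right (by norm_num) (by omega)
      _ ≤ n := h3.trans hn
  obtain ⟨X, b1, b2, b3, b4⟩ := last Y a1 a4 a3 (by positivity) a6 n h4
  obtain ⟨j, hj⟩ : ∃ j, n = Fintype.card X.ι + 2 * j := by
    obtain ⟨a, ha⟩ := hev
    obtain ⟨b, hb⟩ := b2
    exact ⟨a - b, by omega⟩
  obtain ⟨Z, c1, c2, c3⟩ := X.pad b3 j
  refine ⟨Z, by rw [c1, ← hj], c3, ?_⟩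
  rw [c2]
  refine le_trans ?_ b4
  have hn0 : (0 : ℝ) ≤ n := Nat.cast_nonneg _
  have h5 : (0 : ℝ) ≤ (53 / 50 : ℝ) ^ (k ^ m) := by positivity
  nlinarith [mul_le_mul_of_nonneg_left h2 hn0, mul_nonneg hn0 h5]

end Vale.Agent.P065
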