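import Vale.Agent.P065.Defs
import Vale.Agent.P065.Main

/-!
Perturbation to general position, and counting of halving pairs.
-/

namespace Vale.Agent.P065

open Finset Filter Topology

lemma cross_eq_off {p q : ℝ × ℝ} (h : p.1 ≠ q.1) (r : ℝ × ℝ) :
    cross p q r = (q.1 - p.1) * off p q r := by
  have : q.1 - p.1 ≠ 0 := sub_ne_zero.mpr h.symm
  simp only [cross, off, uu]; field_simp; ring

lemma cross_left (p q : ℝ × ℝ) : cross p q p = 0 := by simp [cross]

lemma cross_right (p q : ℝ × ℝ) : cross p q q = 0 := by simp only [cross]; ring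

lemma not_collinear {p q r : ℝ × ℝ} (h : cross p q r ≠ 0) :
    ¬ Collinear ℝ ({p, q, r} : Set (ℝ × ℝ)) := by
  intro hc
  obtain ⟨v, hv⟩ := (collinear_iff_of_mem (p₀ := p) (by simp)).mp hc
  obtain ⟨a, ha⟩ := hv q (by simp)
  obtain ⟨b, hb⟩ := hv r (by simp)
  apply h
  rw [ha, hb]
  simp only [cross, vadd_eq_add, Prod.fst_add, Prod.snd_add, Prod.smul_fst, Prod.smul_snd,
    smul_eq_mul]
  ring

lemma ev_sg {G : ℝ → ℝ} (hG : Continuous G) (h : G 0 ≠ 0) :
    ∀ᶠ e in 𝓝[>] (0 : ℝ), sg (G e) = sg (G 0) := by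
  have h1 : ∀ᶠ e in 𝓝 (0 : ℝ), |G e - G 0| < |G 0| / 2 := by
    have : 0 < |G 0| / 2 := by positivity
    exact Metric.tendsto_nhds.mp (hG.tendsto 0) _ this
  exact (h1.filter_mono nhdsWithin_le_nhds).mono (fun e he => sg_of_close he.le)

lemma sg_ne_zero {x : ℝ} (h : x ≠ 0) : sg x ≠ 0 := by
  rcases lt_or_gt_of_ne h with h | h
  · rw [sg_neg h]; decide
  · rw [sg_pos h]; decide

lemma ne_of_sg {x y : ℝ} (h : sg x = sg y) (hy : y ≠ 0) : x ≠ 0 := by
  rintro rfl
  exact sg_ne_zero hy (by rw [← h, sg_zero])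

lemma ev_quad (A B C : ℝ) (hC : C ≠ 0) : ∀ᶠ e in 𝓝[>] (0 : ℝ), A + B * e + C * e ^ 2 ≠ 0 := by
  by_cases hA : A = 0
  · have h : ∀ᶠ e in 𝓝[>] (0 : ℝ), B + C * e ≠ 0 := by
      by_cases hB : B = 0
      · filter_upwards [self_mem_nhdsWithin] with e he
        rw [hB, zero_add]; exact mul_ne_zero hC (ne_of_gt he)
      · have h0 : B + C * 0 ≠ 0 := by simpa using hB
        exact (ev_sg (G := fun e => B + C * e) (by fun_prop) h0).mono (fun e he => ne_of_sg he h0)
    filter_upwards [h, self_mem_nhdsWithin] with e he he0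
    have : A + B * e + C * e ^ 2 = e * (B + C * e) := by rw [hA]; ring
    rw [this]; exact mul_ne_zero (ne_of_gt he0) he
  · have h0 : A + B * 0 + C * 0 ^ 2 ≠ 0 := by simpa using hA
    exact (ev_sg (G := fun e => A + B * e + C * e ^ 2) (by fun_prop) h0).mono
      (fun e he => ne_of_sg he h0)

lemma perturb {ι : Type} [Fintype ι] (pt : ι → ℝ × ℝ) :
    ∃ pt' : ι → ℝ × ℝ, (∀ a b, a ≠ b → (pt' a).1 ≠ (pt' b).1) ∧
      (∀ a b c, a ≠ b → a ≠ c → b ≠ c → cross (pt' a) (pt' b) (pt' c) ≠ 0) ∧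
      (∀ a b, (pt a).1 < (pt b).1 → (pt' a).1 < (pt' b).1) ∧
      (∀ a b c, cross (pt a) (pt b) (pt c) ≠ 0 →
        sg (cross (pt' a) (pt' b) (pt' c)) = sg (cross (pt a) (pt b) (pt c))) := by
  let t : ι → ℝ := fun a => ((Fintype.equivFin ι a).val : ℝ)
  have ht : ∀ a b, a ≠ b → t b - t a ≠ 0 := fun a b h h' => h (by
    have h1 : t a = t b := by linarith
    have h2 : (Fintype.equivFin ι a).val = (Fintype.equivFin ι b).val := Nat.cast_injective (R := ℝ) h1
    exact (Fintype.equivFin ι).injective (Fin.ext h2))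
  let q : ℝ → ι → ℝ × ℝ := fun e a => ((pt a).1 + e * t a, (pt a).2 + e * t a ^ 2)
  have h1 : ∀ᶠ e in 𝓝[>] (0 : ℝ), ∀ a b, a ≠ b → (q e a).1 ≠ (q e b).1 := by
    refine eventually_all.mpr (fun a => eventually_all.mpr (fun b => ?_))
    by_cases h : a = b
    · exact Eventually.of_forall (fun e h' => absurd h h')
    · filter_upwards [ev_quad 0 ((pt b).1 - (pt a).1) (t b - t a) (ht a b h)] with e he _ h'
      apply he
      simp only [q] at h'
      linear_combination (-e) * h'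
  have h2 : ∀ᶠ e in 𝓝[>] (0 : ℝ), ∀ a b c, a ≠ b → a ≠ c → b ≠ c →
      cross (q e a) (q e b) (q e c) ≠ 0 := by
    refine eventually_all.mpr (fun a => eventually_all.mpr (fun b => eventually_all.mpr
      (fun c => ?_)))
    by_cases h : a ≠ b ∧ a ≠ c ∧ b ≠ c
    · filter_upwards [ev_quad (cross (pt a) (pt b) (pt c))
        (((pt b).1 - (pt a).1) * (t c ^ 2 - t a ^ 2) + (t b - t a) * ((pt c).2 - (pt a).2) -
          ((pt b).2 - (pt a).2) * (t c - t a) - (t b ^ 2 - t a ^ 2) * ((pt c).1 - (pt a).1))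
        ((t b - t a) * (t c - t a) * (t c - t b))
        (mul_ne_zero (mul_ne_zero (ht _ _ h.1) (ht _ _ h.2.1)) (ht _ _ h.2.2))] with e he _ _ _ h'
      apply he
      simp only [q, cross] at h' ⊢
      linear_combination h'
    · exact Eventually.of_forall (fun e h1 h2 h3 => absurd ⟨h1, h2, h3⟩ h)
  have h3 : ∀ᶠ e in 𝓝[>] (0 : ℝ), ∀ a b, (pt a).1 < (pt b).1 → (q e a).1 < (q e b).1 := by
    refine eventually_all.mpr (fun a => eventually_all.mpr (fun b => ?_))
    by_cases h : (pt a).1 < (pt b).1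
    · have h0 : 0 < (q 0 b).1 - (q 0 a).1 := by simp only [q]; linarith
      filter_upwards [ev_sg (G := fun e => (q e b).1 - (q e a).1) (by simp only [q]; fun_prop)
        h0.ne'] with e he _
      rw [sg_pos h0] at he
      by_contra hc
      rcases (sub_nonpos.mpr (not_lt.mp hc)).eq_or_lt with h' | h'
      · rw [h', sg_zero] at he; exact absurd he (by decide)
      · rw [sg_neg h'] at he; exact absurd he (by decide)
    · exact Eventually.of_forall (fun e h' => absurd h' h)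
  have h4 : ∀ᶠ e in 𝓝[>] (0 : ℝ), ∀ a b c, cross (pt a) (pt b) (pt c) ≠ 0 →
      sg (cross (q e a) (q e b) (q e c)) = sg (cross (pt a) (pt b) (pt c)) := by
    refine eventually_all.mpr (fun a => eventually_all.mpr (fun b => eventually_all.mpr
      (fun c => ?_)))
    by_cases h : cross (pt a) (pt b) (pt c) = 0
    · exact Eventually.of_forall (fun e h' => absurd h h')
    · have e0 : cross (q 0 a) (q 0 b) (q 0 c) = cross (pt a) (pt b) (pt c) := by simp [q]
      filter_upwards [ev_sg (G := fun e => cross (q e a) (q e b) (q e c))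
        (by simp only [q, cross]; fun_prop) (by rw [e0]; exact h)] with e he _
      rw [he, e0]
  obtain ⟨e, a1, a2, a3, a4⟩ := (h1.and (h2.and (h3.and h4))).exists
  exact ⟨q e, a1, a2, a3, a4⟩

lemma sg_eq_one {x : ℝ} : sg x = 1 ↔ 0 < x := by
  rcases lt_trichotomy x 0 with h | h | h
  · rw [sg_neg h]; exact ⟨fun h' => absurd h' (by decide), fun h' => absurd h' h.not_gt⟩
  · rw [h, sg_zero]; simp
  · rw [sg_pos h]; simp [h]

lemma sg_eq_neg_one {x : ℝ} : sg x = -1 ↔ x < 0 := by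
  rcases lt_trichotomy x 0 with h | h | h
  · rw [sg_neg h]; simp [h]
  · rw [h, sg_zero]; simp
  · rw [sg_pos h]; exact ⟨fun h' => absurd h' (by decide), fun h' => absurd h' h.not_gt⟩

lemma count_sides {ι : Type} [Fintype ι] (G : ι → ℝ) {a b : ι} (hab : a ≠ b) (ha : G a = 0)
    (hb : G b = 0) (hne : ∀ r, r ≠ a → r ≠ b → G r ≠ 0) (hs : ∑ r, sg (G r) = 0) :
    2 * (univ.filter (fun r => 0 < G r)).card + 2 = Fintype.card ι ∧
      2 * (univ.filter (fun r => G r < 0)).card + 2 = Fintype.card ι := by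
  classical
  have e1 : ∀ r, sg (G r) = (if 0 < G r then 1 else 0) - (if G r < 0 then 1 else 0) := by
    intro r
    rcases lt_trichotomy (G r) 0 with h | h | h
    · simp [sg_neg h, h, h.not_gt]
    · simp [h, sg_zero]
    · simp [sg_pos h, h, h.not_gt]
  have e2 : ∀ r, (1 : ℤ) = (if 0 < G r then 1 else 0) + (if G r < 0 then 1 else 0) +
      (if r = a then 1 else 0) + (if r = b then 1 else 0) := by
    intro r
    by_cases h1 : r = a
    · subst h1; simp [ha, hab]
    · by_cases h2 : r = b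
      · subst h2; simp [hb, h1]
      · rcases lt_or_gt_of_ne (hne r h1 h2) with h | h
        · simp [h, h.not_gt, h1, h2]
        · simp [h, h.not_gt, h1, h2]
  have h1 : ∑ _r : ι, (1 : ℤ) = _ := Finset.sum_congr rfl (fun r _ => e2 r)
  rw [Finset.sum_congr rfl (fun r _ => e1 r), Finset.sum_sub_distrib] at hs
  rw [Finset.sum_add_distrib, Finset.sum_add_distrib, Finset.sum_add_distrib, Finset.sum_ite_eq',
    Finset.sum_ite_eq'] at h1
  simp only [Finset.sum_boole, mem_univ, if_true,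
    Finset.sum_const, card_univ, nsmul_eq_mul, mul_one] at h1 hs
  omega

lemma ncard_image {ι : Type} [Fintype ι] {pt : ι → ℝ × ℝ} (hinj : Function.Injective pt)
    (φ : ℝ × ℝ → Prop) [DecidablePred fun r => φ (pt r)] :
    {r | r ∈ univ.image pt ∧ φ r}.ncard = (univ.filter (fun r => φ (pt r))).card := by
  have : {r | r ∈ univ.image pt ∧ φ r} = ↑((univ.filter (fun r => φ (pt r))).image pt) := by
    ext x
    simp only [mem_image, mem_univ, true_and, Set.mem_ofPred_eq, coe_image, coe_filter,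
      Set.mem_image]
    constructor
    · rintro ⟨⟨r, rfl⟩, h⟩; exact ⟨r, h, rfl⟩
    · rintro ⟨r, h, rfl⟩; exact ⟨⟨r, rfl⟩, h⟩
  rw [this, Set.ncard_coe_finset, Finset.card_image_of_injective _ hinj]

lemma noThree_image {ι : Type} [Fintype ι] {pt : ι → ℝ × ℝ}
    (h : ∀ a b c, a ≠ b → a ≠ c → b ≠ c → cross (pt a) (pt b) (pt c) ≠ 0) :
    NoThreeCollinear (univ.image pt) := by
  intro p hp q hq r hr h1 h2 h3
  obtain ⟨a, -, rfl⟩ := mem_image.mp hp
  obtain ⟨b, -, rfl⟩ := mem_image.mp hq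
  obtain ⟨c, -, rfl⟩ := mem_image.mp hr
  exact not_collinear (h a b c (fun h => h1 (by rw [h])) (fun h => h2 (by rw [h]))
    (fun h => h3 (by rw [h])))

lemma Cfg.sg_cross (X : Cfg) (ν : X.N) : ∑ r, sg (cross (X.pt (X.lo ν)) (X.pt (X.hi ν)) (X.pt r)) = 0 := by
  rw [Finset.sum_congr rfl (fun r _ => by rw [cross_eq_off (X.ne1 ν)])]
  rcases lt_or_gt_of_ne (sub_ne_zero.mpr (X.ne1 ν).symm) with h | h
  · rw [Finset.sum_congr rfl (fun r _ => sg_mul_neg h), Finset.sum_neg_distrib, X.bal, neg_zero]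
  · rw [Finset.sum_congr rfl (fun r _ => sg_mul_pos h), X.bal]

theorem Cfg.halving (X : Cfg) (hX : X.NZ) :
    ∃ P : Finset (ℝ × ℝ), P.card = Fintype.card X.ι ∧ NoThreeCollinear P ∧
      Fintype.card X.N ≤ halvingCount P := by
  classical
  obtain ⟨pt, h1, h2, -, h4⟩ := perturb X.pt
  have hinj : Function.Injective pt := fun a b h => by
    by_contra h'; exact h1 a b h' (by rw [h])
  have hcard : (univ.image pt).card = Fintype.card X.ι := by
    rw [Finset.card_image_of_injective _ hinj, card_univ]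
  refine ⟨univ.image pt, hcard, noThree_image h2, ?_⟩
  have hH : ∀ ν, IsHalvingPair (univ.image pt) (pt (X.lo ν)) (pt (X.hi ν)) := by
    intro ν
    have hs : ∑ r, sg (cross (pt (X.lo ν)) (pt (X.hi ν)) (pt r)) = 0 := by
      rw [← X.sg_cross ν]
      refine Finset.sum_congr rfl (fun r _ => ?_)
      by_cases h : X.On ν r
      · rcases h with rfl | rfl
        · rw [cross_left, cross_left]
        · rw [cross_right, cross_right]
      · refine h4 _ _ _ ?_
        rw [cross_eq_off (X.ne1 ν)]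
        exact mul_ne_zero (sub_ne_zero.mpr (X.ne1 ν).symm) (hX ν r h)
    obtain ⟨c1, c2⟩ := count_sides (fun r => cross (pt (X.lo ν)) (pt (X.hi ν)) (pt r))
      (X.lo_ne_hi ν) (cross_left _ _) (cross_right _ _)
      (fun r hr1 hr2 => h2 _ _ _ (X.lo_ne_hi ν) hr1.symm hr2.symm) hs
    refine ⟨mem_image_of_mem _ (mem_univ _), mem_image_of_mem _ (mem_univ _),
      fun h => X.lo_ne_hi ν (hinj h), ?_, ?_⟩
    · rw [ncard_image hinj, hcard]; exact c1
    · rw [ncard_image hinj, hcard]; exact c2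
  unfold halvingCount
  rw [← Nat.card_eq_fintype_card, ← Set.ncard_univ]
  refine Set.ncard_le_ncard_of_injOn (fun ν => s(pt (X.lo ν), pt (X.hi ν)))
    (fun ν _ => ⟨_, _, rfl, hH ν⟩) (fun ν _ ν' _ h => ?_) ?_
  · rcases Sym2.eq_iff.mp h with ⟨a, b⟩ | ⟨a, b⟩
    · exact X.inj _ _ (Or.inl (hinj a)) (Or.inr (hinj b))
    · exact X.inj _ _ (Or.inr (hinj a)) (Or.inl (hinj b))
  · refine ((univ.image pt).sym2.finite_toSet).subset ?_
    rintro e ⟨p, q, rfl, hp, hq, -⟩
    exact Finset.mem_coe.mpr (Finset.mk_mem_sym2_iff.mpr ⟨hp, hq⟩)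

end Vale.Agent.P065
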