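import Vale.Agent.P065.ProdBal

/-!
The product configuration and its quantitative parameters.
-/

namespace Vale.Agent.P065

open Finset

namespace Par

variable {X Y : Cfg} (P : Par X Y)

lemma bp_inj {n n' : P.NN} {l l' : Y.ι} (h : P.bp n l = P.bp n' l') :
    n.1 = n'.1 ∧ l = l' ∧ (n.2.2.1.val : ℤ) + P.p l * n.2.1.val =
      n'.2.2.1.val + P.p l * n'.2.1.val := by
  simp only [bp, Prod.mk.injEq, Sum.inr.injEq, Sum.inl.injEq] at h
  obtain ⟨h1, h2, h3, h4⟩ := h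
  subst h4
  refine ⟨X.sinj _ _ h1 h2, rfl, ?_⟩
  have e1 := P.row_val n l
  have e2 := P.row_val n' l
  rw [h3] at e1
  omega

noncomputable def prod : Cfg where
  ι := X.ι × P.Cl
  N := P.NN
  Sl := Fin P.S × Y.Sl
  pt := P.npt
  lo n := P.bp n (Y.lo n.2.2.2)
  hi n := P.bp n (Y.hi n.2.2.2)
  slot n := (n.2.1, Y.slot n.2.2.2)
  ne1 n := by
    intro h
    have h1 := P.gap_new n
    rw [h, sub_self] at h1
    rcases mul_eq_zero.mp h1.symm with h2 | h2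
    · exact X.ne1 n.1 (by linarith)
    · exact P.ub_ne _ (by linarith)
  inj n n' h1 h2 := by
    have a1 : Y.lo n'.2.2.2 = Y.lo n.2.2.2 ∨ Y.lo n'.2.2.2 = Y.hi n.2.2.2 :=
      h1.imp (fun h => (P.bp_inj h).2.1) (fun h => (P.bp_inj h).2.1)
    have a2 : Y.hi n'.2.2.2 = Y.lo n.2.2.2 ∨ Y.hi n'.2.2.2 = Y.hi n.2.2.2 :=
      h2.imp (fun h => (P.bp_inj h).2.1) (fun h => (P.bp_inj h).2.1)
    have a3 := Y.inj _ _ a1 a2
    have b1 := h1.elim (fun h => P.bp_inj h |>.2.2) (fun h => P.bp_inj h |>.2.2)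
    have b2 := h2.elim (fun h => P.bp_inj h |>.2.2) (fun h => P.bp_inj h |>.2.2)
    have b3 := h1.elim (fun h => P.bp_inj h |>.1) (fun h => P.bp_inj h |>.1)
    have hp : P.p (Y.lo n'.2.2.2) ≠ P.p (Y.hi n'.2.2.2) := by
      intro h
      have := Y.ne1 n'.2.2.2
      rw [P.hp, P.hp, h] at this
      exact this rfl
    have hi : (n'.2.1.val : ℤ) = n.2.1.val := by
      have : (P.p (Y.lo n'.2.2.2) - P.p (Y.hi n'.2.2.2)) * ((n'.2.1.val : ℤ) - n.2.1.val) = 0 := by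
        linear_combination b1 - b2
      rcases mul_eq_zero.mp this with h | h
      · exact absurd (sub_eq_zero.mp h) hp
      · exact sub_eq_zero.mp h
    have hj : (n'.2.2.1.val : ℤ) = n.2.2.1.val := by rw [hi] at b1; linarith
    exact Prod.ext b3 (Prod.ext (Fin.ext (by exact_mod_cast hi))
      (Prod.ext (Fin.ext (by exact_mod_cast hj)) a3))
  sinj n n' h1 h2 := by
    obtain ⟨a1, a2, a3⟩ := P.bp_inj h1
    obtain ⟨b1, b2⟩ := Prod.mk.inj h2
    rw [b1] at a3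
    have hj : (n.2.2.1.val : ℤ) = n'.2.2.1.val := by linarith
    exact Prod.ext a1 (Prod.ext b1 (Prod.ext (Fin.ext (by exact_mod_cast hj)) (Y.sinj _ _ a2 b2)))
  bal n := by
    rw [Finset.sum_congr rfl (fun z _ => by rw [P.off_new n z])]
    exact P.bal_new n

lemma prod_f (n : P.NN) (z : X.ι × P.Cl) : P.prod.f n z = P.F n z := P.off_new n z

lemma near_lb {x u : ℝ} (hx : P.ξ / 2 ≤ |x|) (hu : |u| ≤ 1) :
    P.ε * P.ξ / 4 * (1 + |u|) ≤ |P.ε * x| := by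
  rw [abs_mul, abs_of_pos P.ε_pos]
  have := mul_pos P.ε_pos P.ξ_pos
  nlinarith [mul_le_mul_of_nonneg_left hx P.ε_pos.le]

lemma near_pos {x u : ℝ} (hx : 1 / 8 ≤ x) (hu : |u| ≤ 1) :
    P.ε * P.ξ / 4 * (1 + |u|) ≤ |P.ε * x| :=
  P.near_lb (by linarith [P.ξ_le, le_abs_self x]) hu

lemma near_neg {x u : ℝ} (hx : x ≤ -(1 / 8)) (hu : |u| ≤ 1) :
    P.ε * P.ξ / 4 * (1 + |u|) ≤ |P.ε * x| :=
  P.near_lb (by linarith [P.ξ_le, neg_abs_le x]) hu

lemma εξ_le : P.ε * P.ξ / 4 ≤ P.m / 6 * (1 / P.K) := by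
  have hK := P.K_pos
  have h3 : P.ε * P.H = P.m / 48 * (1 / P.K) := by rw [← P.εH_le]; field_simp
  have h1 : 1 ≤ P.H := by linarith [P.H_ge, P.QK_ge]
  have h2 : 0 < P.m * (1 / P.K) := by have := P.hm; positivity
  nlinarith [P.ε_pos, P.ξ_le, P.ξ_pos]

lemma oth_lb (n : P.NN) (r : X.ι) (x : P.Cl) (hr : X.On n.1 r) (hp : ¬ X.On n.1 (P.parx r x))
    (hw1 : 1 / P.K ≤ |P.w x|) : P.ε * P.ξ / 4 * (1 + |P.ut n (r, x)|) ≤ |P.F n (r, x)| := by
  obtain ⟨h1, h2⟩ := P.oth n r x hr hp hw1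
  have h3 := abs_close_lb h1
  rw [abs_mul] at h3
  have hK : 0 < 1 / P.K := by have := P.K_pos; positivity
  have h4 := mul_le_mul_of_nonneg_left h2 hK.le
  have h5 := mul_le_mul_of_nonneg_right hw1 (abs_nonneg (X.f n.1 (P.parx r x)))
  have h6 := mul_le_mul_of_nonneg_right P.εξ_le (by positivity : 0 ≤ 1 + |P.ut n (r, x)|)
  nlinarith

lemma own_abs_lb (n : P.NN) (a : Fin (3 * P.E)) (l : Y.ι)
    (h : ¬ (a = P.row n l ∧ Y.On n.2.2.2 l)) :
    P.ξ / 2 ≤ |P.v l * ((a.val : ℝ) - (P.row n l).val + P.ξ * Y.f n.2.2.2 l)| := by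
  have hv := P.v_lb l
  have hξ := P.ξ_pos
  have key : P.ξ ≤ |(a.val : ℝ) - (P.row n l).val + P.ξ * Y.f n.2.2.2 l| := by
    by_cases ha : a = P.row n l
    · have hl : ¬ Y.On n.2.2.2 l := fun h' => h ⟨ha, h'⟩
      rw [ha, sub_self, zero_add, abs_mul, abs_of_pos hξ]
      nlinarith [P.hm0 _ _ hl]
    · have hf := abs_le.mp (P.ξf0_abs n.2.2.2 l)
      rcases lt_or_gt_of_ne (fun h' => ha (Fin.ext h')) with h' | h'
      · have : (a.val : ℝ) + 1 ≤ (P.row n l).val := by exact_mod_cast h'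
        linarith [P.ξ_le, neg_abs_le ((a.val : ℝ) - (P.row n l).val + P.ξ * Y.f n.2.2.2 l), hf.2]
      · have : ((P.row n l).val : ℝ) + 1 ≤ a.val := by exact_mod_cast h'
        linarith [P.ξ_le, le_abs_self ((a.val : ℝ) - (P.row n l).val + P.ξ * Y.f n.2.2.2 l), hf.1]
  rw [abs_mul, abs_of_pos (by linarith : 0 < P.v l)]
  nlinarith

lemma not_own (n : P.NN) (a : Fin (3 * P.E)) (l : Y.ι)
    (hz : ¬ P.prod.On n (X.hi n.1, Sum.inr (Sum.inr (Sum.inl (X.slot n.1, a, l))))) :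
    ¬ (a = P.row n l ∧ Y.On n.2.2.2 l) := by
  rintro ⟨rfl, h | h⟩
  · exact hz (Or.inl (by rw [h]; rfl))
  · exact hz (Or.inr (by rw [h]; rfl))

lemma F_lb (n : P.NN) (z : X.ι × P.Cl) (hz : ¬ P.prod.On n z) :
    P.ε * P.ξ / 4 * (1 + |P.ut n z|) ≤ |P.F n z| := by
  obtain ⟨r, x⟩ := z
  by_cases hr : X.On n.1 r
  swap
  · obtain ⟨h1, h2⟩ := P.far n r x hr
    have h3 := abs_close_lb h1
    have h4 : P.ε * P.ξ / 4 ≤ P.m / 4 := by
      have h5 := P.εξ_le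
      have h6 : 1 / P.K ≤ 1 := by rw [div_le_one P.K_pos]; linarith [P.K_ge]
      nlinarith [P.hm]
    have h6 := mul_le_mul_of_nonneg_right h4 (by positivity : 0 ≤ 1 + |P.ut n (r, x)|)
    nlinarith
  have hu := X.u_on hr
  rcases x with x | x | x | x
  · obtain ⟨h1, h2⟩ := P.self n r (Sum.inl x) hr rfl
    rw [h1, h2]
    rcases hr with rfl | rfl
    · rw [X.u_lo] at hu ⊢
      rw [mul_one]
      rcases lt_or_ge x.1.val (n.2.1.val + 2) with h | h
      · exact P.near_neg (P.U_lo_lt n _ h) hu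
      · exact P.near_pos (P.U_lo_ge n _ h) hu
    · rw [X.u_hi] at hu ⊢
      rw [mul_zero, add_zero]
      exact P.near_neg (P.U_hi n x.1) hu
  · obtain ⟨h1, h2⟩ := P.self n r (Sum.inr (Sum.inl x)) hr rfl
    rw [h1, h2]
    rcases hr with rfl | rfl
    · rw [X.u_lo] at hu ⊢
      rw [mul_one]
      exact P.near_pos (P.V_lo n x.1 x.2.1) hu
    · rw [X.u_hi] at hu ⊢
      rw [mul_zero, add_zero]
      by_cases h : x.1.val < n.2.1.val ∨ (x.1.val = n.2.1.val ∧ x.2.1.val < 2 * n.2.2.1.val + 1)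
      · exact P.near_pos (P.V_hi_pos n _ x.2.1 h) hu
      · exact P.near_neg (P.V_hi_neg n _ x.2.1 (by omega)) hu
  · by_cases hA : X.As r x.1
    · by_cases hne : r = X.hi n.1 ∧ x.1 = X.slot n.1
      · obtain ⟨s, a, l⟩ := x
        obtain ⟨rfl, rfl⟩ := hne
        obtain ⟨h1, h2⟩ := P.F_block n a l
        rw [h1, h2]
        refine P.near_lb (P.own_abs_lb n a l (P.not_own n a l hz)) ?_
        rw [abs_of_pos (P.ub_pos l)]; linarith [P.ub_ub l, P.three_K]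
      · exact P.oth_lb n r _ hr (X.par_oth hr hA hne) (P.w_block x)
    · obtain ⟨h1, h2⟩ := P.self n r (Sum.inr (Sum.inr (Sum.inl x))) hr (X.par_not hA)
      have h3 := abs_le.mp (P.Γ_on n hr)
      rw [h1, h2]
      simp only [η, if_neg hA]
      exact P.near_neg (by linarith [h3.1, P.H_ge, P.QK_ge]) hu
  · by_cases hA : X.As r x.1
    · by_cases hne : r = X.hi n.1 ∧ x.1 = X.slot n.1
      · obtain ⟨s, a, l⟩ := x
        obtain ⟨rfl, rfl⟩ := hne
        obtain ⟨h1, h2⟩ := P.F_twin n a l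
        rw [h1, h2]
        refine P.near_pos (P.T_own n) ?_
        exact ((P.w_abs (Sum.inr (Sum.inr (Sum.inr (X.slot n.1, a, l))))).trans P.three_K).trans
          (by norm_num)
      · exact P.oth_lb n r _ hr (X.par_oth hr hA hne) (P.w_twin x)
    · obtain ⟨h1, h2⟩ := P.self n r (Sum.inr (Sum.inr (Sum.inr x))) hr (X.par_not hA)
      have h3 := abs_le.mp (P.Γ_on n hr)
      rw [h1, h2]
      simp only [η]
      exact P.near_pos (by linarith [h3.2, P.H_ge, P.QK_ge]) hu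

lemma prod_marg : P.prod.Marg (P.ε * P.ξ / (16 * (P.Q * P.K))) := by
  intro (n : P.NN) (z : X.ι × P.Cl) hz
  rw [P.prod_f n z]
  refine le_trans ?_ (P.F_lb n z hz)
  have hQK := P.QK_ge
  have hu : P.prod.u n z = (P.ut n z - P.ub (Y.hi n.2.2.2)) /
      (P.ub (Y.lo n.2.2.2) - P.ub (Y.hi n.2.2.2)) := P.uu_new n z
  have hg := P.ub_gap n.2.2.2
  have h0 : 0 < 1 / (3 * (P.Q * P.K)) := by positivity
  have h1 : |P.prod.u n z| ≤ 3 * (P.Q * P.K) * (1 + |P.ut n z|) := by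
    rw [hu, abs_div, div_le_iff₀ (h0.trans_le hg)]
    have h2 : |P.ut n z - P.ub (Y.hi n.2.2.2)| ≤ 1 + |P.ut n z| := by
      have := abs_sub (P.ut n z) (P.ub (Y.hi n.2.2.2))
      rw [abs_of_pos (P.ub_pos _)] at this
      linarith [P.ub_ub (Y.hi n.2.2.2), P.three_K]
    have h3 : 1 ≤ 3 * (P.Q * P.K) * |P.ub (Y.lo n.2.2.2) - P.ub (Y.hi n.2.2.2)| := by
      rw [div_le_iff₀ (by positivity)] at hg; linarith
    nlinarith [abs_nonneg (P.ut n z)]
  have h2 : 1 + |P.prod.u n z| ≤ 4 * (P.Q * P.K) * (1 + |P.ut n z|) := by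
    nlinarith [abs_nonneg (P.ut n z)]
  have h3 : 0 < P.ε * P.ξ / (16 * (P.Q * P.K)) := by
    have := P.ε_pos; have := P.ξ_pos; positivity
  calc _ ≤ P.ε * P.ξ / (16 * (P.Q * P.K)) * (4 * (P.Q * P.K) * (1 + |P.ut n z|)) :=
        mul_le_mul_of_nonneg_left h2 h3.le
    _ = _ := by have := P.Q_pos; have := P.K_pos; field_simp; ring

lemma prod_comp : P.prod.Comp (1440 * P.E * (P.R * P.Q)) := by
  intro (n : P.NN) (n' : P.NN) hz
  rw [show P.prod.f n (P.prod.lo n') = _ from P.prod_f n _,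
    show P.prod.f n (P.prod.hi n') = _ from P.prod_f n _]
  have hκ : 9 ≤ 1440 * P.E * (P.R * P.Q) := by
    have : 2 ≤ P.R * P.Q := by nlinarith [P.hR, P.Q_ge]
    nlinarith [P.E_ge]
  change |P.F n (P.bp n' (Y.lo n'.2.2.2))| ≤ _ * |P.F n (P.bp n' (Y.hi n'.2.2.2))|
  change ¬ P.prod.On n (P.bp n' (Y.hi n'.2.2.2)) at hz
  generalize Y.lo n'.2.2.2 = l1
  generalize Y.hi n'.2.2.2 = l2 at hz ⊢
  unfold bp at hz ⊢
  by_cases hr : X.On n.1 (X.hi n'.1)
  swap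
  · have h1 := abs_close_ub (P.far n _ (Sum.inr (Sum.inr (Sum.inl
      (X.slot n'.1, P.row n' l1, l1)))) hr).1
    have h2 := abs_close_lb (P.far n _ (Sum.inr (Sum.inr (Sum.inl
      (X.slot n'.1, P.row n' l2, l2)))) hr).1
    nlinarith [abs_nonneg (X.f n.1 (X.hi n'.1))]
  by_cases hne : X.hi n'.1 = X.hi n.1 ∧ X.slot n'.1 = X.slot n.1
  · rw [hne.1, hne.2] at hz ⊢
    rw [(P.F_block n _ l1).2, (P.F_block n _ l2).2, abs_mul P.ε, abs_mul P.ε, abs_of_pos P.ε_pos]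
    have h2 := P.own_abs_lb n _ l2 (P.not_own n _ l2 hz)
    have h1 : |P.v l1 * (((P.row n' l1).val : ℝ) - (P.row n l1).val + P.ξ * Y.f n.2.2.2 l1)| ≤
        2 * (4 * P.E) := by
      rw [abs_mul, abs_of_pos (by linarith [P.v_lb l1] : 0 < P.v l1)]
      refine mul_le_mul (P.v_ub l1) ?_ (abs_nonneg _) (by norm_num)
      have a1 : ((P.row n' l1).val : ℝ) ≤ 3 * P.E := by exact_mod_cast (P.row n' l1).2.le
      have a2 : ((P.row n l1).val : ℝ) ≤ 3 * P.E := by exact_mod_cast (P.row n l1).2.le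
      have a3 : (0 : ℝ) ≤ (P.row n' l1).val := Nat.cast_nonneg _
      have a4 : (0 : ℝ) ≤ (P.row n l1).val := Nat.cast_nonneg _
      have hf := abs_le.mp (P.ξf0_abs n.2.2.2 l1)
      rw [abs_le]; constructor <;> linarith [hf.1, hf.2, P.E_ge]
    have h3 : 0 ≤ 1440 * P.E * (P.R * P.Q) := by linarith
    have h4 := mul_le_mul_of_nonneg_left h2 h3
    have h5 : 1440 * P.E * (P.R * P.Q) * (P.ξ / 2) = 15 * P.E := by
      linear_combination (720 * P.E) * P.ξ_RQ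
    have h6 : |P.v l1 * (((P.row n' l1).val : ℝ) - (P.row n l1).val + P.ξ * Y.f n.2.2.2 l1)| ≤
        1440 * P.E * (P.R * P.Q) *
          |P.v l2 * (((P.row n' l2).val : ℝ) - (P.row n l2).val + P.ξ * Y.f n.2.2.2 l2)| := by
      linarith [P.E_ge]
    have := mul_le_mul_of_nonneg_left h6 P.ε_pos.le
    linarith
  · have hp := X.par_oth hr ⟨n'.1, rfl, rfl⟩ hne
    have h1 := abs_close_ub (P.oth n _ (Sum.inr (Sum.inr (Sum.inl
      (X.slot n'.1, P.row n' l1, l1)))) hr hp (P.w_block _)).1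
    have h2 := abs_close_lb (P.oth n _ (Sum.inr (Sum.inr (Sum.inl
      (X.slot n'.1, P.row n' l2, l2)))) hr hp (P.w_block _)).1
    simp only [w, parx] at h1 h2
    rw [abs_mul, abs_of_pos (P.ub_pos _)] at h1 h2
    have hf := abs_nonneg (X.f n.1 (X.par (X.hi n'.1) (X.slot n'.1)))
    have h3 := mul_le_mul_of_nonneg_right (P.ub_ub l1) hf
    have h4 := mul_le_mul_of_nonneg_right (P.ub_lb l2) hf
    have h5 : 3 / P.K = 3 * (1 / P.K) := by ring
    rw [h5] at h3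
    nlinarith [abs_nonneg (P.F n (X.hi n'.1, Sum.inr (Sum.inr (Sum.inl
      (X.slot n'.1, P.row n' l2, l2)))))]

lemma prod_gap {g : ℝ} (hg : X.Gap g) : P.prod.Gap (g / (3 * (P.Q * P.K))) := by
  intro (n : P.NN)
  change _ ≤ |(P.npt (P.bp n (Y.hi n.2.2.2))).1 - (P.npt (P.bp n (Y.lo n.2.2.2))).1|
  rw [P.gap_new, abs_mul, div_eq_mul_one_div]
  have := P.QK_ge
  exact mul_le_mul (hg n.1) (P.ub_gap _) (by positivity) (abs_nonneg _)

lemma prod_bnd {B : ℝ} (hB1 : 1 ≤ B) (hm1 : P.m ≤ 1) (hB : X.Bnd B) : P.prod.Bnd (2 * B) := by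
  rintro ⟨r, x⟩
  change |(P.npt (r, x)).1| ≤ _ ∧ |(P.npt (r, x)).2| ≤ _
  simp only [npt, mix]
  obtain ⟨a1, a2⟩ := hB r
  obtain ⟨b1, b2⟩ := hB (P.parx r x)
  have hw := (P.w_abs x).trans P.three_K
  have h1 : |P.w x * ((X.pt (P.parx r x)).1 - (X.pt r).1)| ≤ 1 / 8 * (2 * B) := by
    rw [abs_mul]
    exact mul_le_mul hw ((abs_sub _ _).trans (by linarith)) (abs_nonneg _) (by norm_num)
  have h2 : |P.w x * ((X.pt (P.parx r x)).2 - (X.pt r).2)| ≤ 1 / 8 * (2 * B) := by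
    rw [abs_mul]
    exact mul_le_mul hw ((abs_sub _ _).trans (by linarith)) (abs_nonneg _) (by norm_num)
  have h3 : |P.ε * P.η r x| ≤ 1 / 2 := by
    rw [abs_mul, abs_of_pos P.ε_pos]
    have h4 := mul_le_mul_of_nonneg_left (P.η_abs r x) P.ε_pos.le
    have h5 := P.εH_le
    have h6 := mul_pos P.ε_pos P.H_pos
    nlinarith [P.K_ge]
  rw [abs_le] at a1 a2 h1 h2 h3
  rw [abs_le, abs_le]
  constructor <;> constructor <;> linarith [a1.1, a1.2, a2.1, a2.2, h1.1, h1.2, h2.1, h2.2, h3.1, h3.2]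

lemma prod_card : Fintype.card P.prod.ι =
    Fintype.card X.ι * (Fintype.card Y.ι * P.E * (2 * P.S + 1 + 6 * Fintype.card X.Sl)) := by
  change Fintype.card (X.ι × P.Cl) = _
  simp only [Fintype.card_prod, Fintype.card_sum, Fintype.card_fin, P.hnh]
  ring

lemma prod_cardN : Fintype.card P.prod.N = Fintype.card X.N * (P.S * P.E * Fintype.card Y.N) := by
  change Fintype.card P.NN = _
  simp only [Fintype.card_prod, Fintype.card_fin]
  ring

lemma prod_cardS : Fintype.card P.prod.Sl = P.S * Fintype.card Y.Sl := by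
  change Fintype.card (Fin P.S × Y.Sl) = _
  simp only [Fintype.card_prod, Fintype.card_fin]

end Par

end Vale.Agent.P065
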