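import Vale.Agent.P065.ProdSign

/-!
The lines of the new nodes are balanced.
-/

namespace Vale.Agent.P065

open Finset

lemma sum_cst {α : Type} [Fintype α] (G : α → ℤ) (c : ℤ) (h : ∀ x, G x = c) :
    ∑ x, G x = (Fintype.card α : ℤ) * c := by
  rw [Finset.sum_congr rfl (fun x _ => h x)]; simp

namespace Par

variable {X Y : Cfg} (P : Par X Y)

lemma F_block (n : P.NN) (a : Fin (3 * P.E)) (l : Y.ι) :
    P.ut n (X.hi n.1, Sum.inr (Sum.inr (Sum.inl (X.slot n.1, a, l)))) = P.ub l ∧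
    P.F n (X.hi n.1, Sum.inr (Sum.inr (Sum.inl (X.slot n.1, a, l)))) =
      P.ε * (P.v l * ((a.val : ℝ) - (P.row n l).val + P.ξ * Y.f n.2.2.2 l)) := by
  have h := P.own n (Sum.inr (Sum.inr (Sum.inl (X.slot n.1, a, l)))) (X.par_own n.1)
  refine ⟨h.1, ?_⟩
  have hA : X.As (X.hi n.1) (X.slot n.1) := ⟨n.1, rfl, rfl⟩
  rw [h.2, ← P.B_own]
  simp only [η, w, if_pos hA]

lemma F_twin (n : P.NN) (a : Fin (3 * P.E)) (l : Y.ι) :
    P.ut n (X.hi n.1, Sum.inr (Sum.inr (Sum.inr (X.slot n.1, a, l)))) = -(2 / P.K) ∧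
    P.F n (X.hi n.1, Sum.inr (Sum.inr (Sum.inr (X.slot n.1, a, l)))) =
      P.ε * (4 * P.H - (P.G0 n + P.G1 n * -(2 / P.K))) :=
  P.own n (Sum.inr (Sum.inr (Sum.inr (X.slot n.1, a, l)))) (X.par_own n.1)

lemma F_bp (n : P.NN) {l : Y.ι} (hl : Y.On n.2.2.2 l) : P.F n (P.bp n l) = 0 := by
  unfold bp
  rw [(P.F_block n _ l).2, Y.f_on hl]; ring

lemma ut_bp (n : P.NN) (l : Y.ι) : P.ut n (P.bp n l) = P.ub l := (P.F_block n _ l).1

lemma ub_gap (ν : Y.N) : 1 / (3 * (P.Q * P.K)) ≤ |P.ub (Y.lo ν) - P.ub (Y.hi ν)| := by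
  have h1 := P.Qp_pos (Y.lo ν)
  have h2 := P.Qp_pos (Y.hi ν)
  have hK := P.K_pos
  have hQ := P.Q_pos
  have e : P.ub (Y.lo ν) - P.ub (Y.hi ν) = -((P.p (Y.hi ν) : ℝ) - P.p (Y.lo ν)) *
      (P.v (Y.lo ν) * P.v (Y.hi ν) / (P.Q * P.K)) := by
    unfold ub v; field_simp; ring
  have hg := P.gap0 ν
  rw [P.hp, P.hp] at hg
  have hv : 1 / 3 ≤ P.v (Y.lo ν) * P.v (Y.hi ν) := by
    nlinarith [P.v_lb (Y.lo ν), P.v_lb (Y.hi ν)]
  have h3 : 1 / (3 * (P.Q * P.K)) ≤ P.v (Y.lo ν) * P.v (Y.hi ν) / (P.Q * P.K) := by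
    rw [← div_div]; exact div_le_div_of_nonneg_right hv (by positivity)
  have h4 : 0 < 1 / (3 * (P.Q * P.K)) := by positivity
  rw [e, abs_mul, abs_neg, abs_of_pos (h4.trans_le h3)]
  nlinarith

lemma ub_ne (ν : Y.N) : P.ub (Y.lo ν) ≠ P.ub (Y.hi ν) := by
  intro h
  have h1 := P.ub_gap ν
  have h4 : 0 < 1 / (3 * (P.Q * P.K)) := by have := P.K_pos; have := P.Q_pos; positivity
  rw [h, sub_self, abs_zero] at h1
  linarith

lemma off_new (n : P.NN) (z : X.ι × P.Cl) :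
    off (P.npt (P.bp n (Y.lo n.2.2.2))) (P.npt (P.bp n (Y.hi n.2.2.2))) (P.npt z) = P.F n z := by
  have h1 := P.F_bp n (Or.inl rfl : Y.On n.2.2.2 (Y.lo n.2.2.2))
  have h2 := P.F_bp n (Or.inr rfl : Y.On n.2.2.2 (Y.hi n.2.2.2))
  have h3 := P.ut_bp n (Y.lo n.2.2.2)
  have h4 := P.ut_bp n (Y.hi n.2.2.2)
  unfold F at h1 h2 ⊢
  unfold ut at h1 h2 h3 h4 ⊢
  exact off_change (X.ne1 n.1) _ _ _ _ _ (by rw [h3, h4]; exact P.ub_ne _) (by linarith)
    (by linarith)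

lemma uu_new (n : P.NN) (z : X.ι × P.Cl) :
    uu (P.npt (P.bp n (Y.lo n.2.2.2))) (P.npt (P.bp n (Y.hi n.2.2.2))) (P.npt z) =
      (P.ut n z - P.ub (Y.hi n.2.2.2)) / (P.ub (Y.lo n.2.2.2) - P.ub (Y.hi n.2.2.2)) := by
  rw [uu_change (X.ne1 n.1), ← P.ut_bp n, ← P.ut_bp n]; rfl

lemma gap_new (n : P.NN) :
    (P.npt (P.bp n (Y.hi n.2.2.2))).1 - (P.npt (P.bp n (Y.lo n.2.2.2))).1 =
      ((X.pt (X.hi n.1)).1 - (X.pt (X.lo n.1)).1) *
        (P.ub (Y.lo n.2.2.2) - P.ub (Y.hi n.2.2.2)) := by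
  rw [fst_sub_eq (X.ne1 n.1), ← P.ut_bp n, ← P.ut_bp n]; rfl

lemma sg_ε_pos {x : ℝ} (h : 1 / 8 ≤ x) : sg (P.ε * x) = 1 := by
  rw [sg_mul_pos P.ε_pos, sg_pos (by linarith)]

lemma sg_ε_neg {x : ℝ} (h : x ≤ -(1 / 8)) : sg (P.ε * x) = -1 := by
  rw [sg_mul_pos P.ε_pos, sg_neg (by linarith)]

lemma w_twin (x : X.Sl × Fin (3 * P.E) × Y.ι) :
    1 / P.K ≤ |P.w (Sum.inr (Sum.inr (Sum.inr x)))| := by
  have hK := P.K_pos
  simp only [w]; rw [abs_neg, abs_of_pos (by positivity)]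
  exact div_le_div_of_nonneg_right (by norm_num) hK.le

lemma w_block (x : X.Sl × Fin (3 * P.E) × Y.ι) :
    1 / P.K ≤ |P.w (Sum.inr (Sum.inr (Sum.inl x)))| := by
  simp only [w]; rw [abs_of_pos (P.ub_pos _)]; exact P.ub_lb _

lemma cancel (n : P.NN) {r : X.ι} (hr : X.On n.1 r) (x : X.Sl × Fin (3 * P.E) × Y.ι)
    (hne : ¬ (r = X.hi n.1 ∧ x.1 = X.slot n.1)) :
    sg (P.F n (r, Sum.inr (Sum.inr (Sum.inl x)))) +
      sg (P.F n (r, Sum.inr (Sum.inr (Sum.inr x)))) = 0 := by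
  by_cases hA : X.As r x.1
  · have hp := X.par_oth hr hA hne
    have h1 := (P.oth n r (Sum.inr (Sum.inr (Sum.inl x))) hr hp (P.w_block x)).1
    have h2 := (P.oth n r (Sum.inr (Sum.inr (Sum.inr x))) hr hp (P.w_twin x)).1
    rw [sg_of_close h1, sg_of_close h2]
    simp only [w, parx]
    have hK := P.K_pos
    rw [sg_mul_pos (P.ub_pos _), sg_mul_neg (by simp only [Left.neg_neg_iff]; positivity)]
    ring
  · have h1 := (P.self n r (Sum.inr (Sum.inr (Sum.inl x))) hr (X.par_not hA)).2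
    have h2 := (P.self n r (Sum.inr (Sum.inr (Sum.inr x))) hr (X.par_not hA)).2
    have h3 := abs_le.mp (P.Γ_on n hr)
    rw [h1, h2]
    simp only [η, if_neg hA]
    rw [P.sg_ε_neg (by linarith [h3.1, P.H_ge, P.QK_ge]),
      P.sg_ε_pos (by linarith [h3.2, P.H_ge, P.QK_ge])]
    ring

lemma sum_own (n : P.NN) (l : Y.ι) :
    ∑ a : Fin (3 * P.E), sg (P.F n (X.hi n.1, Sum.inr (Sum.inr (Sum.inl (X.slot n.1, a, l))))) =
      (P.E : ℤ) - 1 - 2 * n.2.2.1.val - 2 * n.2.1.val * P.p l + sg (Y.f n.2.2.2 l) := by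
  have hv : 0 < P.v l := by linarith [P.v_lb l]
  have hf := abs_le.mp (P.ξf0_abs n.2.2.2 l)
  rw [sum_three (3 * P.E) (P.row n l).val (P.row n l).2 _ (-1) (sg (Y.f n.2.2.2 l)) 1]
  · rw [P.row_val]; push_cast; ring
  · intro a ha
    have : (a.val : ℝ) + 1 ≤ (P.row n l).val := by exact_mod_cast ha
    rw [(P.F_block n a l).2, sg_mul_pos P.ε_pos, sg_mul_pos hv, sg_neg (by linarith [hf.2])]
  · intro a ha
    rw [(P.F_block n a l).2, sg_mul_pos P.ε_pos, sg_mul_pos hv, ha, sub_self, zero_add,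
      sg_mul_pos P.ξ_pos]
  · intro a ha
    have : ((P.row n l).val : ℝ) + 1 ≤ a.val := by exact_mod_cast ha
    rw [(P.F_block n a l).2, sg_mul_pos P.ε_pos, sg_mul_pos hv, sg_pos (by linarith [hf.1])]

lemma sum_lo (n : P.NN) : ∑ x : P.Cl, sg (P.F n (X.lo n.1, x)) =
    (P.E : ℤ) * (2 * P.nh) * ((P.S : ℤ) + 1 - 2 * (n.2.1.val + 2)) + P.S * (2 * P.E) * P.nh := by
  have hr : X.On n.1 (X.lo n.1) := Or.inl rfl
  have hU : ∑ x : Fin (P.S + 1) × Fin P.E × Y.ι, sg (P.F n (X.lo n.1, Sum.inl x)) =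
      (P.E : ℤ) * (2 * P.nh) * ((P.S : ℤ) + 1 - 2 * (n.2.1.val + 2)) := by
    rw [Fintype.sum_prod_type, sum_two (P.S + 1) (n.2.1.val + 2) (by have := n.2.1.2; omega) _
      (-(P.E * (2 * P.nh))) (P.E * (2 * P.nh))]
    · push_cast; ring
    · intro i hi
      rw [sum_cst _ (-1) (fun y => by
        rw [(P.self n _ (Sum.inl (i, y)) hr rfl).2, X.u_lo, mul_one]
        exact P.sg_ε_neg (P.U_lo_lt n i.val hi))]
      simp [P.hnh]
    · intro i hi
      rw [sum_cst _ 1 (fun y => by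
        rw [(P.self n _ (Sum.inl (i, y)) hr rfl).2, X.u_lo, mul_one]
        exact P.sg_ε_pos (P.U_lo_ge n i.val hi))]
      simp [P.hnh]
  have hV : ∑ x : Fin P.S × Fin (2 * P.E) × Fin P.nh,
      sg (P.F n (X.lo n.1, Sum.inr (Sum.inl x))) = P.S * (2 * P.E) * P.nh := by
    rw [sum_cst _ 1 (fun x => by
      rw [(P.self n _ (Sum.inr (Sum.inl x)) hr rfl).2, X.u_lo, mul_one]
      exact P.sg_ε_pos (P.V_lo n x.1 x.2.1))]
    simp; ring
  rw [Fintype.sum_sum_type, Fintype.sum_sum_type, Fintype.sum_sum_type, hU, hV,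
    ← Finset.sum_add_distrib,
    Finset.sum_congr rfl (fun x _ => P.cancel n hr x (fun h => X.lo_ne_hi _ h.1))]
  simp

lemma sum_hi (n : P.NN) : ∑ x : P.Cl, sg (P.F n (X.hi n.1, x)) =
    -((P.S + 1) * (P.E * (2 * P.nh))) + (2 * P.E * P.nh * (2 * n.2.1.val + 1 - P.S) +
      P.nh * (4 * n.2.2.1.val + 2 - 2 * P.E)) +
      (2 * P.nh * (P.E - 1 - 2 * n.2.2.1.val) + 3 * P.E * (2 * P.nh)) := by
  classical
  have hr : X.On n.1 (X.hi n.1) := Or.inr rfl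
  have hU : ∑ x : Fin (P.S + 1) × Fin P.E × Y.ι, sg (P.F n (X.hi n.1, Sum.inl x)) =
      -((P.S + 1) * (P.E * (2 * P.nh))) := by
    rw [sum_cst _ (-1) (fun x => by
      rw [(P.self n _ (Sum.inl x) hr rfl).2, X.u_hi, mul_zero, add_zero]
      exact P.sg_ε_neg (P.U_hi n x.1))]
    simp [P.hnh]
  have hV : ∑ x : Fin P.S × Fin (2 * P.E) × Fin P.nh,
      sg (P.F n (X.hi n.1, Sum.inr (Sum.inl x))) =
      2 * P.E * P.nh * (2 * n.2.1.val + 1 - P.S) + P.nh * (4 * n.2.2.1.val + 2 - 2 * P.E) := by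
    rw [Fintype.sum_prod_type, sum_three P.S n.2.1.val n.2.1.2 _ (2 * P.E * P.nh)
      (P.nh * (4 * n.2.2.1.val + 2 - 2 * P.E)) (-(2 * P.E * P.nh))]
    · ring
    · intro i hi
      rw [sum_cst _ 1 (fun y => by
        rw [(P.self n _ (Sum.inr (Sum.inl (i, y))) hr rfl).2, X.u_hi, mul_zero, add_zero]
        exact P.sg_ε_pos (P.V_hi_pos n i.val y.1 (Or.inl hi)))]
      simp
    · intro i hi
      rw [Fintype.sum_prod_type, sum_two (2 * P.E) (2 * n.2.2.1.val + 1)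
        (by have := n.2.2.1.2; omega) _ P.nh (-P.nh)]
      · push_cast; ring
      · intro j hj
        rw [sum_cst _ 1 (fun y => by
          rw [(P.self n _ (Sum.inr (Sum.inl (i, j, y))) hr rfl).2, X.u_hi, mul_zero, add_zero]
          exact P.sg_ε_pos (P.V_hi_pos n i.val j (Or.inr ⟨hi, hj⟩)))]
        simp
      · intro j hj
        rw [sum_cst _ (-1) (fun y => by
          rw [(P.self n _ (Sum.inr (Sum.inl (i, j, y))) hr rfl).2, X.u_hi, mul_zero, add_zero]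
          exact P.sg_ε_neg (P.V_hi_neg n i.val j (Or.inr ⟨hi, hj⟩)))]
        simp
    · intro i hi
      rw [sum_cst _ (-1) (fun y => by
        rw [(P.self n _ (Sum.inr (Sum.inl (i, y))) hr rfl).2, X.u_hi, mul_zero, add_zero]
        exact P.sg_ε_neg (P.V_hi_neg n i.val y.1 (Or.inl hi)))]
      simp
  have hB : ∑ x : X.Sl × Fin (3 * P.E) × Y.ι,
      (sg (P.F n (X.hi n.1, Sum.inr (Sum.inr (Sum.inl x)))) +
        sg (P.F n (X.hi n.1, Sum.inr (Sum.inr (Sum.inr x))))) =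
      2 * P.nh * (P.E - 1 - 2 * n.2.2.1.val) + 3 * P.E * (2 * P.nh) := by
    rw [Fintype.sum_prod_type, Finset.sum_eq_single (X.slot n.1)]
    · rw [Finset.sum_add_distrib]
      congr 1
      · rw [Fintype.sum_prod_type_right, Finset.sum_congr rfl (fun l _ => P.sum_own n l),
          Finset.sum_add_distrib, Y.sum_sg_f, Finset.sum_sub_distrib, ← Finset.mul_sum, P.hsum]
        simp [P.hnh]; ring
      · rw [sum_cst _ 1 (fun y => by
          rw [(P.F_twin n y.1 y.2).2]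
          exact P.sg_ε_pos (P.T_own n))]
        simp [P.hnh]
    · intro s _ hs
      exact Finset.sum_eq_zero (fun y _ => P.cancel n hr (s, y) (fun h => hs h.2))
    · simp
  rw [Fintype.sum_sum_type, Fintype.sum_sum_type, Fintype.sum_sum_type, hU, hV,
    ← Finset.sum_add_distrib, hB]
  ring

lemma bal_new (n : P.NN) : ∑ z : X.ι × P.Cl, sg (P.F n z) = 0 := by
  classical
  rw [Fintype.sum_prod_type]
  have e : ∀ r : X.ι, ∑ x : P.Cl, sg (P.F n (r, x)) =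
      (Fintype.card P.Cl : ℤ) * sg (X.f n.1 r) +
        (if r = X.lo n.1 then ∑ x : P.Cl, sg (P.F n (X.lo n.1, x)) else 0) +
        (if r = X.hi n.1 then ∑ x : P.Cl, sg (P.F n (X.hi n.1, x)) else 0) := by
    intro r
    by_cases h1 : r = X.lo n.1
    · subst h1
      rw [X.f_lo, sg_zero, if_pos rfl, if_neg (X.lo_ne_hi _)]; ring
    · by_cases h2 : r = X.hi n.1
      · subst h2
        rw [X.f_hi, sg_zero, if_pos rfl, if_neg h1]; ring
      · rw [if_neg h1, if_neg h2, Finset.sum_congr rfl (fun x _ =>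
          sg_of_close (P.far n r x (fun h => h.elim h1 h2)).1)]
        simp
  rw [Finset.sum_congr rfl (fun r _ => e r), Finset.sum_add_distrib, Finset.sum_add_distrib,
    ← Finset.mul_sum, X.sum_sg_f, Finset.sum_ite_eq', Finset.sum_ite_eq', P.sum_lo, P.sum_hi]
  simp only [Finset.mem_univ, if_true]
  ring

end Par

end Vale.Agent.P065
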