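import Vale.Agent.P065.Basic

/-!
The product of an outer configuration with a lattice of projective copies of an inner one:
definitions and numerical bounds.
-/

namespace Vale.Agent.P065

open Finset

structure Par (X Y : Cfg) where
  p : Y.ι → ℤ
  S : ℕ
  E : ℕ
  nh : ℕ
  R : ℝ
  m : ℝ
  κ : ℝ
  hp : ∀ l, (Y.pt l).1 = p l
  hsum : ∑ l, p l = 0
  hB0 : Y.Bnd R
  hm0 : ∀ ν r, ¬ Y.On ν r → 1 ≤ |Y.f ν r|
  hnh : Fintype.card Y.ι = 2 * nh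
  hS : 1 ≤ S
  hR : 1 ≤ R
  hRSE : R * S ≤ E
  hm : 0 < m
  hκ : 1 ≤ κ
  hM : X.Marg m
  hC : X.Comp κ

namespace Par

variable {X Y : Cfg} (P : Par X Y)

noncomputable def Q : ℝ := 2 * P.E
noncomputable def K : ℝ := 24 * P.κ
noncomputable def H : ℝ := 4 * P.Q * P.K * (P.S + 1)
noncomputable def ξ : ℝ := 1 / (48 * P.R * P.Q)
noncomputable def ε : ℝ := P.m / (48 * P.K * P.H)
noncomputable def v (l : Y.ι) : ℝ := P.Q / (P.Q - P.p l)
noncomputable def ub (l : Y.ι) : ℝ := (P.v l + 1) / P.K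

abbrev Cl : Type :=
  (Fin (P.S + 1) × Fin P.E × Y.ι) ⊕ (Fin P.S × Fin (2 * P.E) × Fin P.nh) ⊕
    (X.Sl × Fin (3 * P.E) × Y.ι) ⊕ (X.Sl × Fin (3 * P.E) × Y.ι)

abbrev NN : Type := X.N × Fin P.S × Fin P.E × Y.N

lemma S_ge : (1 : ℝ) ≤ P.S := by exact_mod_cast P.hS

lemma R_le_E : P.R ≤ P.E := by nlinarith [P.hRSE, P.S_ge, P.hR]

lemma S_le_E : (P.S : ℝ) ≤ P.E := by nlinarith [P.hRSE, P.S_ge, P.hR]

lemma E_ge : (1 : ℝ) ≤ P.E := P.hR.trans P.R_le_E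

lemma Q_ge : 2 ≤ P.Q := by unfold Q; linarith [P.E_ge]

lemma Q_pos : 0 < P.Q := by linarith [P.Q_ge]

lemma K_ge : 24 ≤ P.K := by unfold K; linarith [P.hκ]

lemma K_pos : 0 < P.K := by linarith [P.K_ge]

lemma QK_ge : 48 ≤ P.Q * P.K := by nlinarith [P.Q_ge, P.K_ge]

lemma H_ge : 8 * (P.Q * P.K) ≤ P.H := by
  unfold H; nlinarith [P.QK_ge, P.S_ge]

lemma H_pos : 0 < P.H := by linarith [P.H_ge, P.QK_ge]

lemma R_pos : 0 < P.R := by linarith [P.hR]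

lemma ξ_pos : 0 < P.ξ := by
  unfold ξ; have := P.R_pos; have := P.Q_pos; positivity

lemma ξ_RQ : P.ξ * (P.R * P.Q) = 1 / 48 := by
  unfold ξ; have := P.R_pos; have := P.Q_pos; field_simp

lemma ξ_le : P.ξ ≤ 1 / 96 := by
  have h := P.ξ_RQ
  have : 2 ≤ P.R * P.Q := by nlinarith [P.hR, P.Q_ge]
  nlinarith [P.ξ_pos]

lemma ε_pos : 0 < P.ε := by
  unfold ε; have := P.hm; have := P.K_pos; have := P.H_pos; positivity

lemma ε_KH : P.ε * (P.K * P.H) = P.m / 48 := by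
  unfold ε; have := P.K_pos; have := P.H_pos; field_simp

lemma p_abs (l : Y.ι) : |(P.p l : ℝ)| ≤ P.R := by rw [← P.hp]; exact (P.hB0 l).1

lemma p_abs_E (l : Y.ι) : |(P.p l : ℝ)| ≤ P.E := (P.p_abs l).trans P.R_le_E

lemma Qp_pos (l : Y.ι) : 0 < P.Q - P.p l := by
  have := (abs_le.mp (P.p_abs_E l)).2
  unfold Q; linarith [P.E_ge]

lemma v_mul (l : Y.ι) : P.v l * (P.Q - P.p l) = P.Q := by
  unfold v; exact div_mul_cancel₀ _ (P.Qp_pos l).ne'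

lemma v_lb (l : Y.ι) : 2 / 3 ≤ P.v l := by
  unfold v
  rw [le_div_iff₀ (P.Qp_pos l)]
  have := (abs_le.mp (P.p_abs_E l)).1
  unfold Q; linarith

lemma v_ub (l : Y.ι) : P.v l ≤ 2 := by
  unfold v
  rw [div_le_iff₀ (P.Qp_pos l)]
  have := (abs_le.mp (P.p_abs_E l)).2
  unfold Q; linarith

lemma K_ub (l : Y.ι) : P.K * P.ub l = P.v l + 1 := by
  unfold ub; exact mul_div_cancel₀ _ P.K_pos.ne'

lemma ub_lb (l : Y.ι) : 1 / P.K ≤ P.ub l := by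
  unfold ub; exact div_le_div_of_nonneg_right (by linarith [P.v_lb l]) P.K_pos.le

lemma ub_ub (l : Y.ι) : P.ub l ≤ 3 / P.K := by
  unfold ub; exact div_le_div_of_nonneg_right (by linarith [P.v_ub l]) P.K_pos.le

lemma ub_pos (l : Y.ι) : 0 < P.ub l := lt_of_lt_of_le (by have := P.K_pos; positivity) (P.ub_lb l)

lemma three_K : 3 / P.K ≤ 1 / 8 := by
  rw [div_le_iff₀ P.K_pos]; linarith [P.K_ge]

lemma pi_abs (l : Y.ι) (i : Fin P.S) : |P.p l * (i.val : ℤ)| ≤ (P.E : ℤ) := by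
  have h1 : |(P.p l : ℝ) * (i.val : ℝ)| ≤ P.E := by
    rw [abs_mul, Nat.abs_cast]
    have hi : (i.val : ℝ) ≤ P.S := by exact_mod_cast i.2.le
    calc |(P.p l : ℝ)| * i.val ≤ P.R * P.S :=
          mul_le_mul (P.p_abs l) hi (Nat.cast_nonneg _) P.R_pos.le
      _ ≤ P.E := P.hRSE
  exact_mod_cast h1

/-- the index of the copy of the inner point `l` used by the lattice cell of `n` -/
def row (n : P.NN) (l : Y.ι) : Fin (3 * P.E) :=
  ⟨((n.2.2.1.val : ℤ) + P.p l * (n.2.1.val : ℤ) + P.E).toNat, by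
    have h := (abs_le.mp (P.pi_abs l n.2.1)).2
    have hj := n.2.2.1.2
    omega⟩

lemma row_val (n : P.NN) (l : Y.ι) :
    ((P.row n l).val : ℤ) = (n.2.2.1.val : ℤ) + P.p l * (n.2.1.val : ℤ) + P.E := by
  have h := (abs_le.mp (P.pi_abs l n.2.1)).1
  simp only [row]
  omega

end Par

namespace Cfg

variable (X : Cfg)

/-- the slot `s` of the point `r` is used by some node -/
def As (r : X.ι) (s : X.Sl) : Prop := ∃ ν, X.hi ν = r ∧ X.slot ν = s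

open Classical in
/-- the partner of `r` in the node using the slot `s` -/
noncomputable def par (r : X.ι) (s : X.Sl) : X.ι := if h : X.As r s then X.lo h.choose else r

lemma par_own (ν : X.N) : X.par (X.hi ν) (X.slot ν) = X.lo ν := by
  have h : X.As (X.hi ν) (X.slot ν) := ⟨ν, rfl, rfl⟩
  unfold par
  rw [dif_pos h, X.sinj _ _ h.choose_spec.1 h.choose_spec.2]

lemma par_not {r : X.ι} {s : X.Sl} (h : ¬ X.As r s) : X.par r s = r := by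
  unfold par; rw [dif_neg h]

end Cfg

namespace Par

variable {X Y : Cfg} (P : Par X Y)

noncomputable def w : P.Cl → ℝ
  | Sum.inl _ => 0
  | Sum.inr (Sum.inl _) => 0
  | Sum.inr (Sum.inr (Sum.inl x)) => P.ub x.2.2
  | Sum.inr (Sum.inr (Sum.inr _)) => -(2 / P.K)

noncomputable def parx (r : X.ι) : P.Cl → X.ι
  | Sum.inl _ => r
  | Sum.inr (Sum.inl _) => r
  | Sum.inr (Sum.inr (Sum.inl x)) => X.par r x.1
  | Sum.inr (Sum.inr (Sum.inr x)) => X.par r x.1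

noncomputable def ηU (i : ℕ) : ℝ := P.Q * (P.K - 2) * ((i : ℝ) - 1) - (P.K - 1) / 2

noncomputable def ηV (i j : ℕ) : ℝ := P.H - 2 * P.Q * i - (j : ℝ) / 2 + 1 / 4

noncomputable def ηB (a : ℕ) (l : Y.ι) : ℝ :=
  ((a : ℝ) - P.E + P.ξ * (Y.pt l).2) * P.v l + (1 - P.ub l) * P.H

open Classical in
noncomputable def η (r : X.ι) : P.Cl → ℝ
  | Sum.inl x => P.ηU x.1.val
  | Sum.inr (Sum.inl x) => P.ηV x.1.val x.2.1.val
  | Sum.inr (Sum.inr (Sum.inl x)) => if X.As r x.1 then P.ηB x.2.1.val x.2.2 else -(4 * P.H)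
  | Sum.inr (Sum.inr (Sum.inr _)) => 4 * P.H

noncomputable def npt (z : X.ι × P.Cl) : ℝ × ℝ :=
  mix (X.pt z.1) (X.pt (P.parx z.1 z.2)) (P.w z.2) (P.ε * P.η z.1 z.2)

/-- the block point of the cell of `n` which is a copy of the inner point `l` -/
def bp (n : P.NN) (l : Y.ι) : X.ι × P.Cl :=
  (X.hi n.1, Sum.inr (Sum.inr (Sum.inl (X.slot n.1, P.row n l, l))))

noncomputable def s0 (ν : Y.N) : ℝ :=
  ((Y.pt (Y.hi ν)).2 - (Y.pt (Y.lo ν)).2) / ((Y.pt (Y.hi ν)).1 - (Y.pt (Y.lo ν)).1)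

noncomputable def LQ (ν : Y.N) : ℝ := (Y.pt (Y.hi ν)).2 + s0 ν * (P.Q - (Y.pt (Y.hi ν)).1)

noncomputable def τ (n : P.NN) : ℝ := n.2.2.1.val + P.Q * n.2.1.val + P.ξ * P.LQ n.2.2.2

noncomputable def σ (n : P.NN) : ℝ := P.Q * (n.2.1.val + P.ξ * s0 n.2.2.2)

noncomputable def G0 (n : P.NN) : ℝ := P.H - P.τ n - P.σ n

noncomputable def G1 (n : P.NN) : ℝ := P.K * P.τ n - P.H

lemma w_abs (x : P.Cl) : |P.w x| ≤ 3 / P.K := by
  have hK := P.K_pos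
  rcases x with x | x | x | x
  · simp only [w, abs_zero]; positivity
  · simp only [w, abs_zero]; positivity
  · simp only [w]; rw [abs_of_pos (P.ub_pos _)]; exact P.ub_ub _
  · simp only [w]; rw [abs_neg, abs_of_pos (by positivity)]
    exact div_le_div_of_nonneg_right (by norm_num) hK.le

include P in
lemma gap0 (ν : Y.N) : 1 ≤ |(Y.pt (Y.hi ν)).1 - (Y.pt (Y.lo ν)).1| := by
  have h := Y.ne1 ν
  rw [P.hp, P.hp] at h ⊢
  have h' : P.p (Y.hi ν) - P.p (Y.lo ν) ≠ 0 := fun h0 => h (by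
    have : P.p (Y.lo ν) = P.p (Y.hi ν) := by omega
    rw [this])
  have := Int.one_le_abs h'
  exact_mod_cast this

lemma s0_abs (ν : Y.N) : |s0 ν| ≤ 2 * P.R := by
  unfold s0
  rw [abs_div, div_le_iff₀ (by linarith [P.gap0 ν])]
  have h1 := (P.hB0 (Y.hi ν)).2
  have h2 := (P.hB0 (Y.lo ν)).2
  have h3 := abs_sub (Y.pt (Y.hi ν)).2 (Y.pt (Y.lo ν)).2
  nlinarith [P.gap0 ν, P.R_pos]

lemma LQ_abs (ν : Y.N) : |P.LQ ν| ≤ 4 * (P.R * P.Q) := by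
  unfold LQ
  have h1 := (P.hB0 (Y.hi ν)).2
  have h2 := (P.hB0 (Y.hi ν)).1
  have h3 : |P.Q - (Y.pt (Y.hi ν)).1| ≤ P.Q + P.R := by
    have := abs_sub P.Q (Y.pt (Y.hi ν)).1
    rw [abs_of_pos P.Q_pos] at this; linarith
  have h4 : |s0 ν * (P.Q - (Y.pt (Y.hi ν)).1)| ≤ 2 * P.R * (P.Q + P.R) := by
    rw [abs_mul]; exact mul_le_mul (P.s0_abs ν) h3 (abs_nonneg _) (by linarith [P.R_pos])
  have h5 := abs_add_le (Y.pt (Y.hi ν)).2 (s0 ν * (P.Q - (Y.pt (Y.hi ν)).1))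
  have h6 : 2 * P.R ≤ P.Q := by unfold Q; linarith [P.R_le_E]
  nlinarith [P.R_pos, P.Q_ge]

lemma ξLQ_abs (ν : Y.N) : |P.ξ * P.LQ ν| ≤ 1 / 12 := by
  rw [abs_mul, abs_of_pos P.ξ_pos]
  nlinarith [P.LQ_abs ν, P.ξ_RQ, P.ξ_pos]

lemma Qξs_abs (ν : Y.N) : |P.Q * (P.ξ * s0 ν)| ≤ 1 / 24 := by
  rw [abs_mul, abs_mul, abs_of_pos P.ξ_pos, abs_of_pos P.Q_pos]
  have h := mul_le_mul_of_nonneg_left (P.s0_abs ν) (mul_pos P.Q_pos P.ξ_pos).le
  nlinarith [P.ξ_RQ]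

lemma f0_eq (ν : Y.N) (l : Y.ι) :
    Y.f ν l = (Y.pt l).2 - (P.LQ ν - s0 ν * (P.Q - P.p l)) := by
  have h : (Y.pt (Y.hi ν)).1 - (Y.pt (Y.lo ν)).1 ≠ 0 := sub_ne_zero.mpr (Y.ne1 ν).symm
  simp only [Cfg.f, off, uu, LQ, s0, ← P.hp l]
  field_simp
  ring

lemma ξf0_abs (ν : Y.N) (l : Y.ι) : |P.ξ * Y.f ν l| ≤ 1 / 4 := by
  rw [P.f0_eq]
  have h1 : |P.ξ * (Y.pt l).2| ≤ 1 / 48 := by
    rw [abs_mul, abs_of_pos P.ξ_pos]
    have := (P.hB0 l).2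
    nlinarith [P.ξ_RQ, P.ξ_pos, P.Q_ge, P.R_pos, mul_pos P.ξ_pos P.R_pos]
  have h2 := P.ξLQ_abs ν
  have h3 : |P.ξ * s0 ν * (P.Q - P.p l)| ≤ 1 / 12 := by
    have e : P.ξ * s0 ν * (P.Q - P.p l) = (P.Q * (P.ξ * s0 ν)) * ((P.Q - P.p l) / P.Q) := by
      have := P.Q_pos; field_simp
    have h4 : |(P.Q - P.p l) / P.Q| ≤ 2 := by
      rw [abs_div, abs_of_pos P.Q_pos, abs_of_pos (P.Qp_pos l), div_le_iff₀ P.Q_pos]
      have := (abs_le.mp (P.p_abs_E l)).1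
      unfold Q; linarith [P.E_ge]
    rw [e, abs_mul]
    nlinarith [P.Qξs_abs ν, abs_nonneg ((P.Q - P.p l) / P.Q), abs_nonneg (P.Q * (P.ξ * s0 ν))]
  have e : P.ξ * ((Y.pt l).2 - (P.LQ ν - s0 ν * (P.Q - P.p l))) =
      P.ξ * (Y.pt l).2 - P.ξ * P.LQ ν + P.ξ * s0 ν * (P.Q - P.p l) := by ring
  rw [e]
  rw [abs_le] at h1 h2 h3 ⊢
  constructor <;> linarith [h1.1, h1.2, h2.1, h2.2, h3.1, h3.2]

lemma i_le (n : P.NN) : (n.2.1.val : ℝ) ≤ P.S - 1 := by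
  have h : n.2.1.val + 1 ≤ P.S := n.2.1.2
  have : (n.2.1.val : ℝ) + 1 ≤ P.S := by exact_mod_cast h
  linarith

lemma j_le (n : P.NN) : (n.2.2.1.val : ℝ) ≤ P.E - 1 := by
  have h : n.2.2.1.val + 1 ≤ P.E := n.2.2.1.2
  have : (n.2.2.1.val : ℝ) + 1 ≤ P.E := by exact_mod_cast h
  linarith

lemma τ_lb (n : P.NN) : -(1 / 12) ≤ P.τ n := by
  have := (abs_le.mp (P.ξLQ_abs n.2.2.2)).1
  have h1 : (0 : ℝ) ≤ n.2.2.1.val := Nat.cast_nonneg _
  have h2 : (0 : ℝ) ≤ P.Q * n.2.1.val := mul_nonneg P.Q_pos.le (Nat.cast_nonneg _)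
  unfold τ; linarith

lemma τ_ub (n : P.NN) : P.τ n ≤ P.Q * P.S := by
  have := (abs_le.mp (P.ξLQ_abs n.2.2.2)).2
  have h1 := P.j_le n
  have h2 := mul_le_mul_of_nonneg_left (P.i_le n) P.Q_pos.le
  have h3 : P.Q = 2 * P.E := rfl
  unfold τ; nlinarith [P.E_ge]

lemma σ_lb (n : P.NN) : -(1 / 24) ≤ P.σ n := by
  have := (abs_le.mp (P.Qξs_abs n.2.2.2)).1
  have h2 : (0 : ℝ) ≤ P.Q * n.2.1.val := mul_nonneg P.Q_pos.le (Nat.cast_nonneg _)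
  unfold σ; linarith

lemma σ_ub (n : P.NN) : P.σ n ≤ P.Q * P.S := by
  have := (abs_le.mp (P.Qξs_abs n.2.2.2)).2
  have h2 := mul_le_mul_of_nonneg_left (P.i_le n) P.Q_pos.le
  unfold σ; nlinarith [P.Q_ge]

lemma QKS_le : 4 * (P.Q * P.K * P.S) + 4 * (P.Q * P.K) = P.H := by unfold H; ring

lemma QS_le : 24 * (P.Q * P.S) ≤ P.Q * P.K * P.S := by
  have := mul_pos P.Q_pos (lt_of_lt_of_le one_pos P.S_ge)
  nlinarith [P.K_ge]

lemma G0_abs (n : P.NN) : |P.G0 n| ≤ 2 * P.H := by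
  have := P.τ_lb n; have := P.τ_ub n; have := P.σ_lb n; have := P.σ_ub n
  have := P.QKS_le; have := P.QS_le; have := P.QK_ge
  have := mul_pos P.Q_pos (lt_of_lt_of_le one_pos P.S_ge)
  unfold G0; rw [abs_le]; constructor <;> linarith

lemma G1_abs (n : P.NN) : |P.G1 n| ≤ 2 * P.H := by
  have h1 := mul_le_mul_of_nonneg_left (P.τ_lb n) P.K_pos.le
  have h2 := mul_le_mul_of_nonneg_left (P.τ_ub n) P.K_pos.le
  have := P.QKS_le; have := P.QS_le; have := P.QK_ge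
  have := mul_pos P.Q_pos (lt_of_lt_of_le one_pos P.S_ge)
  have h3 : P.K ≤ P.Q * P.K := by nlinarith [P.Q_ge, P.K_pos]
  unfold G1; rw [abs_le]; constructor <;> nlinarith

lemma η_abs (r : X.ι) (x : P.Cl) : |P.η r x| ≤ 4 * P.H := by
  have hH := P.QKS_le
  have hQS := P.QS_le
  have hQK := P.QK_ge
  have hQS0 := mul_pos P.Q_pos (lt_of_lt_of_le one_pos P.S_ge)
  have hK : P.K ≤ P.Q * P.K := by nlinarith [P.Q_ge, P.K_pos]
  have hQ : P.Q ≤ P.Q * P.S := by nlinarith [P.Q_pos, P.S_ge]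
  have hQE : P.Q = 2 * P.E := rfl
  rcases x with x | x | x | x
  · simp only [η, ηU]
    have h1 : (x.1.val : ℝ) ≤ P.S := by exact_mod_cast Nat.lt_succ_iff.mp x.1.2
    have h0 : (0 : ℝ) ≤ x.1.val := Nat.cast_nonneg _
    have hq : 0 ≤ P.Q * (P.K - 2) := mul_nonneg P.Q_pos.le (by linarith [P.K_ge])
    have h2 := mul_le_mul_of_nonneg_left h1 hq
    have h3 := mul_nonneg hq h0
    rw [abs_le]; constructor <;> nlinarith [P.K_ge, P.Q_pos]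
  · simp only [η, ηV]
    have h1 : (x.1.val : ℝ) ≤ P.S := by exact_mod_cast x.1.2.le
    have h0 : (0 : ℝ) ≤ x.1.val := Nat.cast_nonneg _
    have h1' : (x.2.1.val : ℝ) ≤ 2 * P.E := by exact_mod_cast x.2.1.2.le
    have h0' : (0 : ℝ) ≤ x.2.1.val := Nat.cast_nonneg _
    have h2 := mul_le_mul_of_nonneg_left h1 P.Q_pos.le
    have h3 := mul_nonneg P.Q_pos.le h0
    rw [abs_le]; constructor <;> nlinarith
  · simp only [η]
    split_ifs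
    · simp only [ηB]
      have h1 : (x.2.1.val : ℝ) ≤ 3 * P.E := by exact_mod_cast x.2.1.2.le
      have h0 : (0 : ℝ) ≤ x.2.1.val := Nat.cast_nonneg _
      have h2 : |P.ξ * (Y.pt x.2.2).2| ≤ 1 := by
        rw [abs_mul, abs_of_pos P.ξ_pos]
        have := (P.hB0 x.2.2).2
        nlinarith [P.ξ_RQ, P.ξ_pos, P.Q_ge, P.R_pos, mul_pos P.ξ_pos P.R_pos]
      have h3 : |(x.2.1.val : ℝ) - P.E + P.ξ * (Y.pt x.2.2).2| ≤ 2 * P.Q := by
        rw [abs_le] at h2 ⊢; constructor <;> linarith [h2.1, h2.2, P.E_ge]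
      have h4 : |((x.2.1.val : ℝ) - P.E + P.ξ * (Y.pt x.2.2).2) * P.v x.2.2| ≤ 2 * P.Q * 2 := by
        rw [abs_mul, abs_of_pos (by linarith [P.v_lb x.2.2] : 0 < P.v x.2.2)]
        exact mul_le_mul h3 (P.v_ub _) (by linarith [P.v_lb x.2.2]) (by linarith [P.Q_pos])
      have h5 := P.ub_pos x.2.2
      have h6 := (P.ub_ub x.2.2).trans P.three_K
      have h7 := P.H_pos
      rw [abs_le] at h4 ⊢
      constructor <;> nlinarith [h4.1, h4.2]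
    · rw [abs_neg, abs_of_pos (by linarith [P.H_pos])]
  · simp only [η]; rw [abs_of_pos (by linarith [P.H_pos])]

end Par

end Vale.Agent.P065
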