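import Vale.Agent.P065.ProdDef

/-!
Offsets of the new points from the lines of the new nodes.
-/

namespace Vale.Agent.P065

open Finset

namespace Cfg

variable (X : Cfg)

lemma par_oth {ν : X.N} {r : X.ι} {s : X.Sl} (hr : X.On ν r) (h : X.As r s)
    (hne : ¬ (r = X.hi ν ∧ s = X.slot ν)) : ¬ X.On ν (X.par r s) := by
  obtain ⟨ν', h1, h2⟩ := h
  subst h1 h2
  rw [X.par_own]
  intro hon
  have := X.inj ν ν' hon hr
  subst this
  exact hne ⟨rfl, rfl⟩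

lemma par_cases (r : X.ι) (s : X.Sl) : X.par r s = r ∨ ∃ ν, X.hi ν = r ∧ X.par r s = X.lo ν := by
  by_cases h : X.As r s
  · obtain ⟨ν, h1, h2⟩ := h
    subst h1 h2
    exact Or.inr ⟨ν, rfl, X.par_own ν⟩
  · exact Or.inl (X.par_not h)

end Cfg

namespace Par

variable {X Y : Cfg} (P : Par X Y)

noncomputable def ut (n : P.NN) (z : X.ι × P.Cl) : ℝ :=
  uu (X.pt (X.lo n.1)) (X.pt (X.hi n.1)) (P.npt z)

noncomputable def F (n : P.NN) (z : X.ι × P.Cl) : ℝ :=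
  off (X.pt (X.lo n.1)) (X.pt (X.hi n.1)) (P.npt z) - (P.ε * P.G0 n + P.ε * P.G1 n * P.ut n z)

lemma ut_eq (n : P.NN) (r : X.ι) (x : P.Cl) :
    P.ut n (r, x) = (1 - P.w x) * X.u n.1 r + P.w x * X.u n.1 (P.parx r x) := by
  simp only [ut, npt, uu_mix, Cfg.u]

lemma F_eq (n : P.NN) (r : X.ι) (x : P.Cl) :
    P.F n (r, x) = (1 - P.w x) * X.f n.1 r + P.w x * X.f n.1 (P.parx r x) +
      P.ε * (P.η r x - (P.G0 n + P.G1 n * P.ut n (r, x))) := by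
  simp only [F, npt, off_mix, Cfg.f]; ring

lemma err_abs (n : P.NN) (r : X.ι) (x : P.Cl) :
    |P.ε * (P.η r x - (P.G0 n + P.G1 n * P.ut n (r, x)))| ≤
      6 * (P.ε * P.H) * (1 + |P.ut n (r, x)|) := by
  rw [abs_mul, abs_of_pos P.ε_pos]
  have h1 := P.η_abs r x
  have h2 := P.G0_abs n
  have h3 : |P.G1 n * P.ut n (r, x)| ≤ 2 * P.H * |P.ut n (r, x)| := by
    rw [abs_mul]; exact mul_le_mul_of_nonneg_right (P.G1_abs n) (abs_nonneg _)
  have h4 := abs_sub (P.η r x) (P.G0 n + P.G1 n * P.ut n (r, x))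
  have h5 := abs_add_le (P.G0 n) (P.G1 n * P.ut n (r, x))
  have h6 : 0 ≤ P.H * |P.ut n (r, x)| := mul_nonneg P.H_pos.le (abs_nonneg _)
  have h7 : |P.η r x - (P.G0 n + P.G1 n * P.ut n (r, x))| ≤ 6 * P.H * (1 + |P.ut n (r, x)|) := by
    nlinarith
  have := mul_le_mul_of_nonneg_left h7 P.ε_pos.le
  linarith

lemma parx_cases (r : X.ι) (x : P.Cl) :
    P.parx r x = r ∨ ∃ ν, X.hi ν = r ∧ P.parx r x = X.lo ν := by
  rcases x with x | x | x | x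
  · exact Or.inl rfl
  · exact Or.inl rfl
  · exact X.par_cases r x.1
  · exact X.par_cases r x.1

lemma εH_le : P.ε * P.H * P.K = P.m / 48 := by rw [← P.ε_KH]; ring

lemma far (n : P.NN) (r : X.ι) (x : P.Cl) (hr : ¬ X.On n.1 r) :
    |P.F n (r, x) - X.f n.1 r| ≤ |X.f n.1 r| / 2 ∧
      P.m * (1 + |P.ut n (r, x)|) ≤ 2 * |X.f n.1 r| := by
  have hM := P.hM n.1 r hr
  have hm := P.hm
  have hκ := P.hκ
  have hf0 := abs_nonneg (X.f n.1 r)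
  have hu0 := abs_nonneg (X.u n.1 r)
  have hmf : P.m ≤ |X.f n.1 r| := by nlinarith
  have hκf : |X.f n.1 r| ≤ P.κ * |X.f n.1 r| := by nlinarith
  have hc : |X.f n.1 (P.parx r x)| ≤ P.κ * |X.f n.1 r| := by
    rcases P.parx_cases r x with h | ⟨ν, h1, h2⟩
    · rw [h]; exact hκf
    · rw [h2, ← h1]; exact P.hC n.1 ν (by rw [h1]; exact hr)
  have hcu : P.m * |X.u n.1 (P.parx r x)| ≤ P.κ * |X.f n.1 r| := by
    by_cases h : X.On n.1 (P.parx r x)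
    · have := X.u_on h; nlinarith
    · have := P.hM n.1 _ h; nlinarith
  have hw := P.w_abs x
  have hw8 := hw.trans P.three_K
  have hw0 := abs_nonneg (P.w x)
  have hwκ : |P.w x| * P.κ ≤ 1 / 8 := by
    have h1 : 3 / P.K * P.κ = 1 / 8 := by unfold K; field_simp; norm_num
    nlinarith
  have hut : P.m * (1 + |P.ut n (r, x)|) ≤ 2 * |X.f n.1 r| := by
    have h1 : |P.ut n (r, x)| ≤ 9 / 8 * |X.u n.1 r| + |P.w x| * |X.u n.1 (P.parx r x)| := by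
      rw [P.ut_eq]
      refine (abs_add_le _ _).trans ?_
      rw [abs_mul, abs_mul]
      have : |1 - P.w x| ≤ 9 / 8 := by
        have := abs_sub 1 (P.w x); rw [abs_one] at this; linarith
      nlinarith
    have h2 : |P.w x| * (P.m * |X.u n.1 (P.parx r x)|) ≤ |P.w x| * (P.κ * |X.f n.1 r|) :=
      mul_le_mul_of_nonneg_left hcu hw0
    have h3 : |P.w x| * P.κ * |X.f n.1 r| ≤ 1 / 8 * |X.f n.1 r| :=
      mul_le_mul_of_nonneg_right hwκ hf0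
    have h4 := mul_le_mul_of_nonneg_left h1 hm.le
    nlinarith
  refine ⟨?_, hut⟩
  have he := P.err_abs n r x
  have h1 : 6 * (P.ε * P.H) * (1 + |P.ut n (r, x)|) ≤ |X.f n.1 r| / 4 := by
    have h2 := P.εH_le
    have h3 : P.ε * P.H ≤ P.m / 48 := by
      have := mul_pos P.ε_pos P.H_pos
      nlinarith [P.K_ge]
    have h4 : 0 ≤ 1 + |P.ut n (r, x)| := by positivity
    nlinarith [mul_le_mul_of_nonneg_right h3 h4]
  have h2 : |P.w x * (X.f n.1 (P.parx r x) - X.f n.1 r)| ≤ |X.f n.1 r| / 4 := by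
    rw [abs_mul]
    have h3 := abs_sub (X.f n.1 (P.parx r x)) (X.f n.1 r)
    have h4 : |X.f n.1 (P.parx r x) - X.f n.1 r| ≤ 2 * (P.κ * |X.f n.1 r|) := by linarith
    have h5 := mul_le_mul_of_nonneg_left h4 hw0
    have h6 : |P.w x| * P.κ * |X.f n.1 r| ≤ 1 / 8 * |X.f n.1 r| :=
      mul_le_mul_of_nonneg_right hwκ hf0
    nlinarith
  have e : P.F n (r, x) - X.f n.1 r = P.w x * (X.f n.1 (P.parx r x) - X.f n.1 r) +
      P.ε * (P.η r x - (P.G0 n + P.G1 n * P.ut n (r, x))) := by rw [P.F_eq]; ring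
  rw [e]
  have := abs_add_le (P.w x * (X.f n.1 (P.parx r x) - X.f n.1 r))
    (P.ε * (P.η r x - (P.G0 n + P.G1 n * P.ut n (r, x))))
  linarith

lemma oth (n : P.NN) (r : X.ι) (x : P.Cl) (hr : X.On n.1 r) (hp : ¬ X.On n.1 (P.parx r x))
    (hw1 : 1 / P.K ≤ |P.w x|) :
    |P.F n (r, x) - P.w x * X.f n.1 (P.parx r x)| ≤ |P.w x * X.f n.1 (P.parx r x)| / 2 ∧
      P.m * (1 + |P.ut n (r, x)|) ≤ 3 * |X.f n.1 (P.parx r x)| := by
  have hM := P.hM n.1 _ hp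
  have hm := P.hm
  have hf0 := abs_nonneg (X.f n.1 (P.parx r x))
  have hu0 := abs_nonneg (X.u n.1 (P.parx r x))
  have hw8 := (P.w_abs x).trans P.three_K
  have hw0 := abs_nonneg (P.w x)
  have hut : P.m * (1 + |P.ut n (r, x)|) ≤ 3 * |X.f n.1 (P.parx r x)| := by
    have h1 : |P.ut n (r, x)| ≤ 9 / 8 + 1 / 8 * |X.u n.1 (P.parx r x)| := by
      rw [P.ut_eq]
      refine (abs_add_le _ _).trans ?_
      rw [abs_mul, abs_mul]
      have : |1 - P.w x| ≤ 9 / 8 := by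
        have := abs_sub 1 (P.w x); rw [abs_one] at this; linarith
      have h2 := X.u_on hr
      nlinarith [abs_nonneg (X.u n.1 r), abs_nonneg (1 - P.w x)]
    have h4 := mul_le_mul_of_nonneg_left h1 hm.le
    nlinarith
  refine ⟨?_, hut⟩
  have he := P.err_abs n r x
  have e : P.F n (r, x) - P.w x * X.f n.1 (P.parx r x) =
      P.ε * (P.η r x - (P.G0 n + P.G1 n * P.ut n (r, x))) := by
    rw [P.F_eq, X.f_on hr]; ring
  rw [e, abs_mul (P.w x)]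
  have h2 := P.εH_le
  have hK := P.K_pos
  have h3 : P.ε * P.H = P.m / 48 * (1 / P.K) := by rw [← h2]; field_simp
  have h4 : 0 < 1 / P.K := by positivity
  have h5 := mul_le_mul_of_nonneg_left hut h4.le
  have h6 := mul_le_mul_of_nonneg_right hw1 hf0
  rw [h3] at he
  nlinarith

lemma self (n : P.NN) (r : X.ι) (x : P.Cl) (hr : X.On n.1 r) (hp : P.parx r x = r) :
    P.ut n (r, x) = X.u n.1 r ∧
      P.F n (r, x) = P.ε * (P.η r x - (P.G0 n + P.G1 n * X.u n.1 r)) := by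
  have h : P.ut n (r, x) = X.u n.1 r := by rw [P.ut_eq, hp]; ring
  refine ⟨h, ?_⟩
  rw [P.F_eq, hp, X.f_on hr, h]; ring

lemma own (n : P.NN) (x : P.Cl) (hp : P.parx (X.hi n.1) x = X.lo n.1) :
    P.ut n (X.hi n.1, x) = P.w x ∧
      P.F n (X.hi n.1, x) = P.ε * (P.η (X.hi n.1) x - (P.G0 n + P.G1 n * P.w x)) := by
  have h : P.ut n (X.hi n.1, x) = P.w x := by rw [P.ut_eq, hp, X.u_hi, X.u_lo]; ring
  refine ⟨h, ?_⟩
  rw [P.F_eq, hp, X.f_hi, X.f_lo, h]; ring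

lemma U_hi (n : P.NN) (i : Fin (P.S + 1)) : P.ηU i.val - P.G0 n ≤ -(1 / 8) := by
  have := P.τ_ub n; have := P.σ_ub n
  have := P.QKS_le; have := P.QS_le; have := P.QK_ge
  have h1 : (i.val : ℝ) - 1 ≤ P.S := by
    have : (i.val : ℝ) ≤ P.S := by exact_mod_cast Nat.lt_succ_iff.mp i.2
    linarith
  have hq : 0 ≤ P.Q * (P.K - 2) := mul_nonneg P.Q_pos.le (by linarith [P.K_ge])
  have h2 := mul_le_mul_of_nonneg_left h1 hq
  have hQS0 := mul_pos P.Q_pos (lt_of_lt_of_le one_pos P.S_ge)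
  unfold ηU G0; nlinarith [P.K_ge]

lemma G01 (n : P.NN) : P.G0 n + P.G1 n = (P.K - 1) * n.2.2.1.val + P.Q * (P.K - 2) * n.2.1.val +
    ((P.K - 1) * (P.ξ * P.LQ n.2.2.2) - P.Q * (P.ξ * s0 n.2.2.2)) := by
  unfold G0 G1 τ σ; ring

lemma e2_abs (ν : Y.N) :
    |(P.K - 1) * (P.ξ * P.LQ ν) - P.Q * (P.ξ * s0 ν)| ≤ (P.K - 1) / 12 + 1 / 24 := by
  have h1 : |(P.K - 1) * (P.ξ * P.LQ ν)| ≤ (P.K - 1) / 12 := by
    rw [abs_mul, abs_of_pos (by linarith [P.K_ge] : 0 < P.K - 1)]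
    nlinarith [P.ξLQ_abs ν, P.K_ge]
  have h2 := P.Qξs_abs ν
  have := abs_sub ((P.K - 1) * (P.ξ * P.LQ ν)) (P.Q * (P.ξ * s0 ν))
  linarith

lemma U_lo_lt (n : P.NN) (i : ℕ) (h : i < n.2.1.val + 2) :
    P.ηU i - (P.G0 n + P.G1 n) ≤ -(1 / 8) := by
  rw [P.G01]
  have h1 : (i : ℝ) - 1 ≤ n.2.1.val := by
    have : i ≤ n.2.1.val + 1 := by omega
    have : (i : ℝ) ≤ n.2.1.val + 1 := by exact_mod_cast this
    linarith
  have hq : 0 ≤ P.Q * (P.K - 2) := mul_nonneg P.Q_pos.le (by linarith [P.K_ge])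
  have h2 := mul_le_mul_of_nonneg_left h1 hq
  have h3 := (abs_le.mp (P.e2_abs n.2.2.2)).1
  have h4 : 0 ≤ (P.K - 1) * n.2.2.1.val := mul_nonneg (by linarith [P.K_ge]) (Nat.cast_nonneg _)
  unfold ηU; linarith [P.K_ge]

lemma U_lo_ge (n : P.NN) (i : ℕ) (h : n.2.1.val + 2 ≤ i) :
    1 / 8 ≤ P.ηU i - (P.G0 n + P.G1 n) := by
  rw [P.G01]
  have h1 : (n.2.1.val : ℝ) + 1 ≤ (i : ℝ) - 1 := by
    have : (n.2.1.val : ℝ) + 2 ≤ i := by exact_mod_cast h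
    linarith
  have hq : 0 ≤ P.Q * (P.K - 2) := mul_nonneg P.Q_pos.le (by linarith [P.K_ge])
  have h2 := mul_le_mul_of_nonneg_left h1 hq
  have h3 := (abs_le.mp (P.e2_abs n.2.2.2)).2
  have h4 : (P.K - 1) * n.2.2.1.val ≤ (P.K - 1) * (P.E - 1) :=
    mul_le_mul_of_nonneg_left (P.j_le n) (by linarith [P.K_ge])
  have hQ : P.Q = 2 * P.E := rfl
  have h5 : 0 ≤ (P.E : ℝ) * (P.K - 3) := mul_nonneg (Nat.cast_nonneg _) (by linarith [P.K_ge])
  unfold ηU; nlinarith [P.K_ge]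

lemma V_hi (n : P.NN) (i j : ℕ) : P.ηV i j - P.G0 n =
    2 * P.Q * ((n.2.1.val : ℝ) - i) + n.2.2.1.val - (j : ℝ) / 2 + 1 / 4 +
      (P.ξ * P.LQ n.2.2.2 + P.Q * (P.ξ * s0 n.2.2.2)) := by
  unfold ηV G0 τ σ; ring

lemma e1_abs (ν : Y.N) : |P.ξ * P.LQ ν + P.Q * (P.ξ * s0 ν)| ≤ 1 / 8 := by
  have := abs_add_le (P.ξ * P.LQ ν) (P.Q * (P.ξ * s0 ν))
  linarith [P.ξLQ_abs ν, P.Qξs_abs ν]

lemma V_hi_pos (n : P.NN) (i : ℕ) (j : Fin (2 * P.E))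
    (h : i < n.2.1.val ∨ (i = n.2.1.val ∧ j.val < 2 * n.2.2.1.val + 1)) :
    1 / 8 ≤ P.ηV i j.val - P.G0 n := by
  rw [P.V_hi]
  have h3 := (abs_le.mp (P.e1_abs n.2.2.2)).1
  rcases h with h | ⟨h, h'⟩
  · have h1 : (1 : ℝ) ≤ (n.2.1.val : ℝ) - i := by
      have : (i : ℝ) + 1 ≤ n.2.1.val := by exact_mod_cast h
      linarith
    have h2 : (j.val : ℝ) ≤ 2 * P.E := by exact_mod_cast j.2.le
    have h4 : (0 : ℝ) ≤ n.2.2.1.val := Nat.cast_nonneg _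
    have hQ : P.Q = 2 * P.E := rfl
    nlinarith [P.Q_pos]
  · have h2 : (j.val : ℝ) ≤ 2 * n.2.2.1.val := by exact_mod_cast Nat.lt_succ_iff.mp h'
    rw [h]; linarith

lemma V_hi_neg (n : P.NN) (i : ℕ) (j : Fin (2 * P.E))
    (h : n.2.1.val < i ∨ (i = n.2.1.val ∧ 2 * n.2.2.1.val + 1 ≤ j.val)) :
    P.ηV i j.val - P.G0 n ≤ -(1 / 8) := by
  rw [P.V_hi]
  have h3 := (abs_le.mp (P.e1_abs n.2.2.2)).2
  rcases h with h | ⟨h, h'⟩
  · have h1 : (n.2.1.val : ℝ) - i ≤ -1 := by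
      have : (n.2.1.val : ℝ) + 1 ≤ i := by exact_mod_cast h
      linarith
    have h2 : (0 : ℝ) ≤ j.val := Nat.cast_nonneg _
    have h4 := P.j_le n
    have hQ : P.Q = 2 * P.E := rfl
    nlinarith [P.Q_pos]
  · have h2 : 2 * (n.2.2.1.val : ℝ) + 1 ≤ j.val := by exact_mod_cast h'
    rw [h]; linarith

lemma V_lo (n : P.NN) (i : Fin P.S) (j : Fin (2 * P.E)) :
    1 / 8 ≤ P.ηV i.val j.val - (P.G0 n + P.G1 n) := by
  have h1 : (i.val : ℝ) ≤ P.S := by exact_mod_cast i.2.le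
  have h2 : (j.val : ℝ) ≤ 2 * P.E := by exact_mod_cast j.2.le
  have h3 := mul_le_mul_of_nonneg_left h1 P.Q_pos.le
  have h4 := mul_le_mul_of_nonneg_left (P.τ_ub n) P.K_pos.le
  have := P.τ_lb n; have := P.σ_lb n
  have := P.QKS_le; have := P.QS_le; have := P.QK_ge
  have hQ : P.Q = 2 * P.E := rfl
  have hK : P.Q ≤ P.Q * P.K := by nlinarith [P.Q_pos, P.K_ge]
  have hQS0 := mul_pos P.Q_pos (lt_of_lt_of_le one_pos P.S_ge)
  unfold ηV G0 G1; nlinarith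

lemma Γ_on (n : P.NN) {r : X.ι} (hr : X.On n.1 r) : |P.G0 n + P.G1 n * X.u n.1 r| ≤ 3 * P.H := by
  rcases hr with rfl | rfl
  · rw [X.u_lo, mul_one]
    have h1 := mul_le_mul_of_nonneg_left (P.τ_lb n) P.K_pos.le
    have h2 := mul_le_mul_of_nonneg_left (P.τ_ub n) P.K_pos.le
    have := P.τ_lb n; have := P.τ_ub n; have := P.σ_lb n; have := P.σ_ub n
    have := P.QKS_le; have := P.QS_le; have := P.QK_ge
    have := mul_pos P.Q_pos (lt_of_lt_of_le one_pos P.S_ge)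
    have h3 : P.K ≤ P.Q * P.K := by nlinarith [P.Q_ge, P.K_pos]
    unfold G0 G1; rw [abs_le]; constructor <;> nlinarith
  · rw [X.u_hi, mul_zero, add_zero]; linarith [P.G0_abs n, P.H_pos]

lemma T_own (n : P.NN) : 1 / 8 ≤ 4 * P.H - (P.G0 n + P.G1 n * -(2 / P.K)) := by
  have h1 := (abs_le.mp (P.G0_abs n)).2
  have h2 := (abs_le.mp (P.G1_abs n)).1
  have h3 : 2 / P.K ≤ 1 / 8 := by rw [div_le_iff₀ P.K_pos]; linarith [P.K_ge]
  have h4 : 0 < 2 / P.K := by have := P.K_pos; positivity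
  nlinarith [P.H_ge, P.QK_ge]

lemma B_own (n : P.NN) (a : ℕ) (l : Y.ι) : P.ηB a l - (P.G0 n + P.G1 n * P.ub l) =
    P.v l * ((a : ℝ) - (P.row n l).val + P.ξ * Y.f n.2.2.2 l) := by
  have h1 : ((P.row n l).val : ℝ) = (n.2.2.1.val : ℝ) + P.p l * n.2.1.val + P.E := by
    exact_mod_cast P.row_val n l
  have h2 := P.v_mul l
  have h3 := P.K_ub l
  rw [h1, P.f0_eq]
  unfold ηB G0 G1 τ σ
  linear_combination (-(n.2.2.1.val + P.Q * n.2.1.val + P.ξ * P.LQ n.2.2.2)) * h3 -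
    (n.2.1.val + P.ξ * s0 n.2.2.2) * h2

end Par

end Vale.Agent.P065
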