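import Vale.Agent.P065.Basic

/-!
Rounding the first coordinates of a configuration to integers.
-/

namespace Vale.Agent.P065

open Finset

lemma sg_div (x y : ℝ) : sg (x / y) = sg x * sg y := by
  rcases lt_trichotomy y 0 with hy | hy | hy
  · rw [div_eq_inv_mul, sg_mul_neg (inv_lt_zero.mpr hy), sg_neg hy]; ring
  · simp [hy, sg_zero]
  · rw [div_eq_inv_mul, sg_mul_pos (inv_pos.mpr hy), sg_pos hy]; ring

lemma off_eq_div {p q : ℝ × ℝ} (h : p.1 ≠ q.1) (r : ℝ × ℝ) :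
    off p q r = ((r.2 - q.2) * (q.1 - p.1) - (p.2 - q.2) * (q.1 - r.1)) / (q.1 - p.1) := by
  have : q.1 - p.1 ≠ 0 := sub_ne_zero.mpr h.symm
  simp only [off, uu]; field_simp

lemma off_affine (p q r : ℝ × ℝ) {n : ℝ} (hn : n ≠ 0) (s l : ℝ) :
    off (n * p.1 - s, l * p.2) (n * q.1 - s, l * q.2) (n * r.1 - s, l * r.2) = l * off p q r := by
  simp only [off, uu]
  have e1 : n * q.1 - s - (n * r.1 - s) = n * (q.1 - r.1) := by ring
  have e2 : n * q.1 - s - (n * p.1 - s) = n * (q.1 - p.1) := by ring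
  rw [e1, e2, mul_div_mul_left _ _ hn]; ring

lemma floor_diff (x y : ℝ) : |((⌊x⌋ : ℝ) - ⌊y⌋) - (x - y)| ≤ 1 := by
  have := Int.floor_le x; have := Int.floor_le y
  have := Int.lt_floor_add_one x; have := Int.lt_floor_add_one y
  rw [abs_le]; constructor <;> linarith

lemma round_pt {p q r : ℝ × ℝ} {T B : ℝ} (hT : 0 < T) (hB1 : 1 ≤ B) (hpq : p.1 ≠ q.1)
    (hp : |p.2| ≤ B) (hq : |q.2| ≤ B) (hr : |r.2| ≤ B) (hg : 2 ≤ T * |q.1 - p.1|)
    (hf : 8 * B ≤ T * |q.1 - p.1| * |off p q r|) :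
    sg (off (⌊T * p.1⌋, p.2) (⌊T * q.1⌋, q.2) (⌊T * r.1⌋, r.2)) = sg (off p q r) ∧
      |off p q r| / 3 ≤ |off (⌊T * p.1⌋, p.2) (⌊T * q.1⌋, q.2) (⌊T * r.1⌋, r.2)| := by
  have hd : q.1 - p.1 ≠ 0 := sub_ne_zero.mpr hpq.symm
  have h1 := floor_diff (T * q.1) (T * p.1)
  have h2 := floor_diff (T * q.1) (T * r.1)
  have h3 : |T * q.1 - T * p.1| = T * |q.1 - p.1| := by rw [← mul_sub, abs_mul, abs_of_pos hT]
  have hG : |((⌊T * q.1⌋ : ℝ) - ⌊T * p.1⌋) - (T * q.1 - T * p.1)| ≤ |T * q.1 - T * p.1| / 2 := by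
    rw [h3]; linarith
  have hG1 := abs_close_lb hG
  have hG2 := abs_close_ub hG
  have hne : ((⌊T * p.1⌋ : ℝ), p.2).1 ≠ ((⌊T * q.1⌋ : ℝ), q.2).1 := by
    intro h
    simp only at h
    rw [h, sub_self, abs_zero, h3] at hG1
    linarith
  rw [off_eq_div hne]
  simp only
  set D := (r.2 - q.2) * (T * q.1 - T * p.1) - (p.2 - q.2) * (T * q.1 - T * r.1) with hD
  set D' := (r.2 - q.2) * ((⌊T * q.1⌋ : ℝ) - ⌊T * p.1⌋) -
    (p.2 - q.2) * ((⌊T * q.1⌋ : ℝ) - ⌊T * r.1⌋) with hD'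
  have e1 : D = (T * q.1 - T * p.1) * off p q r := by
    rw [off_eq_div hpq, hD]; field_simp
  have e2 : off p q r = D / (T * q.1 - T * p.1) := by
    rw [e1, mul_div_cancel_left₀]
    rw [← mul_sub]; exact mul_ne_zero hT.ne' hd
  have hDabs : |D| = T * |q.1 - p.1| * |off p q r| := by rw [e1, abs_mul, h3]
  have hDD : |D' - D| ≤ |D| / 2 := by
    have e : D' - D = (r.2 - q.2) * (((⌊T * q.1⌋ : ℝ) - ⌊T * p.1⌋) - (T * q.1 - T * p.1)) -
        (p.2 - q.2) * (((⌊T * q.1⌋ : ℝ) - ⌊T * r.1⌋) - (T * q.1 - T * r.1)) := by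
      rw [hD, hD']; ring
    have a1 : |(r.2 - q.2) * (((⌊T * q.1⌋ : ℝ) - ⌊T * p.1⌋) - (T * q.1 - T * p.1))| ≤ 2 * B * 1 := by
      rw [abs_mul]
      exact mul_le_mul ((abs_sub _ _).trans (by linarith)) h1 (abs_nonneg _) (by linarith)
    have a2 : |(p.2 - q.2) * (((⌊T * q.1⌋ : ℝ) - ⌊T * r.1⌋) - (T * q.1 - T * r.1))| ≤ 2 * B * 1 := by
      rw [abs_mul]
      exact mul_le_mul ((abs_sub _ _).trans (by linarith)) h2 (abs_nonneg _) (by linarith)
    rw [e]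
    refine (abs_sub _ _).trans ?_
    linarith
  constructor
  · rw [sg_div, sg_of_close hDD, sg_of_close hG, ← sg_div, ← e2]
  · have hpos : 0 < |(⌊T * q.1⌋ : ℝ) - ⌊T * p.1⌋| := by rw [h3] at hG1; linarith
    rw [abs_div, le_div_iff₀ hpos]
    have := abs_close_lb hDD
    rw [hDabs] at this
    rw [h3] at hG2
    nlinarith [abs_nonneg (off p q r)]

theorem Cfg.round (X : Cfg) {m g B : ℝ} (hm : 0 < m) (hm1 : m ≤ 1) (hg : 0 < g) (hg1 : g ≤ 1)
    (hB1 : 1 ≤ B) (hM : X.Marg m) (hG : X.Gap g) (hB : X.Bnd B)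
    (hev : Even (Fintype.card X.ι)) (hn : 1 ≤ Fintype.card X.ι) :
    ∃ Y : Cfg, Fintype.card Y.ι = Fintype.card X.ι ∧ Fintype.card Y.N = Fintype.card X.N ∧
      Fintype.card Y.Sl = Fintype.card X.Sl ∧
      Y.Inner (18 * Fintype.card X.ι * B ^ 2 / (m * g)) := by
  set n : ℕ := Fintype.card X.ι with hnd
  have hn1 : (1 : ℝ) ≤ n := by exact_mod_cast hn
  set T : ℝ := 8 * B / (m * g) with hT
  have hT0 : 0 < T := by positivity
  have hTmg : T * (m * g) = 8 * B := by rw [hT]; field_simp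
  set s : ℤ := ∑ r, ⌊T * (X.pt r).1⌋ with hs
  let pt' : X.ι → ℝ × ℝ := fun r => ((n : ℝ) * (⌊T * (X.pt r).1⌋ : ℝ) - s, 3 / m * (X.pt r).2)
  have hoff : ∀ a b c, off (pt' a) (pt' b) (pt' c) = 3 / m * off (⌊T * (X.pt a).1⌋, (X.pt a).2)
      (⌊T * (X.pt b).1⌋, (X.pt b).2) (⌊T * (X.pt c).1⌋, (X.pt c).2) := fun a b c =>
    off_affine (⌊T * (X.pt a).1⌋, (X.pt a).2) (⌊T * (X.pt b).1⌋, (X.pt b).2)
      (⌊T * (X.pt c).1⌋, (X.pt c).2) (by linarith) _ _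
  have hgap : ∀ ν, 8 ≤ T * |(X.pt (X.hi ν)).1 - (X.pt (X.lo ν)).1| := by
    intro ν
    have h1 := mul_le_mul_of_nonneg_left (hG ν) hT0.le
    have h2 : 0 < T * g := by positivity
    nlinarith
  have hfm : ∀ ν r, ¬ X.On ν r → m ≤ |X.f ν r| := by
    intro ν r h
    have := hM ν r h
    nlinarith [abs_nonneg (X.u ν r)]
  have key : ∀ ν r, ¬ X.On ν r →
      sg (off (pt' (X.lo ν)) (pt' (X.hi ν)) (pt' r)) = sg (X.f ν r) ∧
        1 ≤ |off (pt' (X.lo ν)) (pt' (X.hi ν)) (pt' r)| := by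
    intro ν r h
    have h1 := hfm ν r h
    have h2 : 8 * B ≤ T * |(X.pt (X.hi ν)).1 - (X.pt (X.lo ν)).1| * |X.f ν r| := by
      have h3 := mul_le_mul_of_nonneg_left (hG ν) hT0.le
      calc 8 * B = T * g * m := by rw [← hTmg]; ring
        _ ≤ _ := mul_le_mul h3 h1 hm.le (by positivity)
    obtain ⟨h3, h4⟩ := round_pt hT0 hB1 (X.ne1 ν) (hB _).2 (hB _).2 (hB r).2
      (by linarith [hgap ν]) h2
    rw [hoff, sg_mul_pos (by positivity), h3, abs_mul, abs_of_pos (by positivity : 0 < 3 / m)]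
    refine ⟨rfl, ?_⟩
    have h5 : m / 3 ≤ _ := le_trans (by unfold Cfg.f at h1; linarith) h4
    have h6 := mul_le_mul_of_nonneg_left h5 (by positivity : 0 ≤ 3 / m)
    have h7 : 3 / m * (m / 3) = 1 := by field_simp
    linarith
  have hne : ∀ ν, (pt' (X.lo ν)).1 ≠ (pt' (X.hi ν)).1 := by
    intro ν h
    simp only [pt'] at h
    have h1 : (⌊T * (X.pt (X.lo ν)).1⌋ : ℝ) = ⌊T * (X.pt (X.hi ν)).1⌋ := by
      have : (n : ℝ) * (⌊T * (X.pt (X.lo ν)).1⌋ : ℝ) = n * ⌊T * (X.pt (X.hi ν)).1⌋ := by linarith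
      exact mul_left_cancel₀ (by linarith) this
    have h2 := floor_diff (T * (X.pt (X.hi ν)).1) (T * (X.pt (X.lo ν)).1)
    rw [h1, sub_self, zero_sub, abs_neg, ← mul_sub, abs_mul, abs_of_pos hT0] at h2
    linarith [hgap ν]
  refine ⟨{ ι := X.ι, N := X.N, Sl := X.Sl, pt := pt', lo := X.lo, hi := X.hi, slot := X.slot,
            ne1 := hne, inj := X.inj, sinj := X.sinj, bal := ?_ }, rfl, rfl, rfl, ?_, ?_, ?_, hev⟩
  · intro ν
    rw [← X.sum_sg_f ν]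
    refine Finset.sum_congr rfl (fun r _ => ?_)
    by_cases h : X.On ν r
    · rw [X.f_on h]
      rcases h with rfl | rfl
      · rw [off_left (hne ν)]
      · rw [off_right]
    · exact (key ν r h).1
  · refine ⟨fun r => n * ⌊T * (X.pt r).1⌋ - s, fun r => by simp [pt'], ?_⟩
    change ∑ r : X.ι, ((n : ℤ) * ⌊T * (X.pt r).1⌋ - s) = 0
    rw [Finset.sum_sub_distrib, ← Finset.mul_sum, ← hs]
    simp [hnd]
  · have hmg : m * g ≤ 1 := by nlinarith
    have hmg0 : 0 < m * g := by positivity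
    have hA : ∀ r, |(⌊T * (X.pt r).1⌋ : ℝ)| ≤ 9 * B ^ 2 / (m * g) := by
      intro r
      have h1 : |T * (X.pt r).1| ≤ T * B := by
        rw [abs_mul, abs_of_pos hT0]; exact mul_le_mul_of_nonneg_left (hB r).1 hT0.le
      have h2 : T * B = 8 * B ^ 2 / (m * g) := by rw [hT]; ring
      have h3 : 1 ≤ B ^ 2 / (m * g) := by rw [le_div_iff₀ hmg0]; nlinarith
      have h4 : 9 * B ^ 2 / (m * g) = 8 * B ^ 2 / (m * g) + B ^ 2 / (m * g) := by ring
      have := Int.floor_le (T * (X.pt r).1)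
      have := Int.lt_floor_add_one (T * (X.pt r).1)
      rw [abs_le] at h1 ⊢
      constructor <;> linarith [h1.1, h1.2]
    have hsabs : |(s : ℝ)| ≤ n * (9 * B ^ 2 / (m * g)) := by
      rw [hs]; push_cast
      refine (Finset.abs_sum_le_sum_abs _ _).trans ?_
      refine (Finset.sum_le_sum (fun r _ => hA r)).trans ?_
      simp [hnd]
    intro r
    change |(n : ℝ) * (⌊T * (X.pt r).1⌋ : ℝ) - s| ≤ _ ∧ |3 / m * (X.pt r).2| ≤ _
    constructor
    · refine (abs_sub _ _).trans ?_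
      rw [abs_mul, abs_of_nonneg (by linarith : (0 : ℝ) ≤ n)]
      have := mul_le_mul_of_nonneg_left (hA r) (by linarith : (0 : ℝ) ≤ n)
      have e : 18 * n * B ^ 2 / (m * g) = n * (9 * B ^ 2 / (m * g)) + n * (9 * B ^ 2 / (m * g)) := by
        ring
      linarith
    · rw [abs_mul, abs_of_pos (by positivity : 0 < 3 / m), le_div_iff₀ hmg0]
      have h1 : 3 / m * |(X.pt r).2| * (m * g) = 3 * g * |(X.pt r).2| := by field_simp
      rw [h1]
      have h2 := (hB r).2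
      have h3 : g * |(X.pt r).2| ≤ 1 * B := mul_le_mul hg1 h2 (abs_nonneg _) (by norm_num)
      have h4 : B ≤ n * B ^ 2 := by nlinarith
      nlinarith
  · intro ν r h
    exact (key ν r h).2

end Vale.Agent.P065
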